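import Vale.Agent.P097.H367.PropA

/-! # P097 / NZ-D, part 2: the Hartogs step and the theorem -/

set_option linter.all false

open scoped ComplexConjugate Topology
open Filter Metric Set Complex

namespace Vale.Agent.P097.H367.PropD

open Vale.Agent.P097.TA Vale.Agent.P097.H543

/-- the barrier -/
noncomputable def bar (κ R : ℝ) (Y : ℂ) : ℂ := I * (κ * (1 - (Y / R) ^ 2))

theorem bar_re (κ R : ℝ) (Y : ℂ) : (bar κ R Y).re = κ * ((Y / R) ^ 2).im := by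
  unfold bar
  rw [I_mul_re, im_ofReal_mul, sub_im, one_im]
  ring

theorem bar_im (κ R : ℝ) (Y : ℂ) : (bar κ R Y).im = κ * (1 - ((Y / R) ^ 2).re) := by
  unfold bar
  rw [I_mul_im, re_ofReal_mul, sub_re, one_re]

theorem bar_diff (κ R : ℝ) : Differentiable ℂ (bar κ R) := by
  unfold bar
  fun_prop

theorem norm_div_R' {R : ℝ} (hR : 0 < R) (w : ℂ) : ‖w / (R : ℂ)‖ = ‖w‖ / R := by
  rw [norm_div, Complex.norm_real, Real.norm_eq_abs, abs_of_pos hR]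

theorem bar_bounds {κ R : ℝ} (hκ : 0 < κ) (hR : 0 < R) {Y : ℂ} (hY : ‖Y‖ ≤ R) :
    |(bar κ R Y).re| ≤ κ ∧ 0 ≤ (bar κ R Y).im ∧ (bar κ R Y).im ≤ 2 * κ := by
  have h0 : ‖(Y / (R : ℂ)) ^ 2‖ ≤ 1 := by
    rw [norm_pow, norm_div_R' hR]
    have : ‖Y‖ / R ≤ 1 := by rw [div_le_one hR]; exact hY
    exact pow_le_one₀ (by positivity) this
  have h1 := (Complex.abs_re_le_norm ((Y / (R : ℂ)) ^ 2)).trans h0
  have h2 := (Complex.abs_im_le_norm ((Y / (R : ℂ)) ^ 2)).trans h0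
  have h3 := abs_le.1 h1
  have h4 := abs_le.1 h2
  rw [bar_re, bar_im]
  refine ⟨?_, ?_, ?_⟩
  · rw [abs_mul, abs_of_pos hκ]
    nlinarith
  · nlinarith [h3.2]
  · nlinarith [h3.1]

/-- on the circle, outside of the sector, the barrier is low -/
theorem bar_low {κ R : ℝ} (hκ : 0 < κ) (hR : 0 < R) {Y : ℂ} (hY : ‖Y‖ = R)
    (hs : |Y.im| ≤ 1 / 2 * ‖Y‖) : (bar κ R Y).im ≤ κ / 2 := by
  rw [bar_im]
  have h1 : ((Y / (R : ℂ)) ^ 2).re = (Y.re ^ 2 - Y.im ^ 2) / R ^ 2 := by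
    have e : Y / (R : ℂ) = ((Y.re / R : ℝ) : ℂ) + ((Y.im / R : ℝ) : ℂ) * I := by
      apply Complex.ext
      · simp [Complex.div_ofReal_re]
      · simp [Complex.div_ofReal_im]
    rw [sq, mul_re, Complex.div_ofReal_re, Complex.div_ofReal_im]
    field_simp
  have h2 : Y.re ^ 2 + Y.im ^ 2 = R ^ 2 := by
    have := Complex.sq_norm Y
    rw [hY, Complex.normSq_apply] at this
    nlinarith
  have h3 : Y.im ^ 2 ≤ 1 / 4 * R ^ 2 := by
    have h4 : |Y.im| ^ 2 ≤ (1 / 2 * ‖Y‖) ^ 2 := pow_le_pow_left₀ (abs_nonneg _) hs 2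
    rw [sq_abs, hY] at h4
    linarith [h4]
  have h5 : 1 / 2 ≤ (Y.re ^ 2 - Y.im ^ 2) / R ^ 2 := by
    rw [le_div_iff₀ (by positivity)]
    linarith
  rw [h1]
  nlinarith

/-- identity of germs along a connected set -/
theorem germ_eq {f g : ℂ → ℂ → ℂ} {G : Set ℂ} (hG : IsPreconnected G)
    (hf : ∀ x ∈ G, ∃ ε > 0, JD f (ball x ε ×ˢ ball 0 ε))
    (hg : ∀ x ∈ G, ∃ ε > 0, JD g (ball x ε ×ˢ ball 0 ε)) {x₀ : ℂ} (hx₀ : x₀ ∈ G)
    (h0 : ∀ᶠ p : ℂ × ℂ in 𝓝 (x₀, 0), f p.1 p.2 = g p.1 p.2) :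
    ∀ x ∈ G, ∀ᶠ p : ℂ × ℂ in 𝓝 (x, 0), f p.1 p.2 = g p.1 p.2 := by
  set u : Set ℂ := {x | ∀ᶠ p : ℂ × ℂ in 𝓝 (x, 0), f p.1 p.2 = g p.1 p.2} with hu
  have hu1 : IsOpen u := by
    have h1 : IsOpen {q : ℂ × ℂ | ∀ᶠ p : ℂ × ℂ in 𝓝 q, f p.1 p.2 = g p.1 p.2} :=
      isOpen_setOf_eventually_nhds
    exact h1.preimage (Continuous.prodMk_left (0 : ℂ))
  have key : G ⊆ u := by
    refine hG.subset_of_closure_inter_subset hu1 ⟨x₀, hx₀, h0⟩ ?_
    rintro x ⟨hx1, hx2⟩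
    obtain ⟨ε₁, he1, hf1⟩ := hf x hx2
    obtain ⟨ε₂, he2, hg1⟩ := hg x hx2
    set ε := min ε₁ ε₂ with hε
    have hε0 : 0 < ε := lt_min he1 he2
    obtain ⟨y, hyu, hyx⟩ := Metric.mem_closure_iff.1 hx1 ε hε0
    obtain ⟨δ, hδ, hy⟩ := Metric.eventually_nhds_iff_ball.1 hyu
    -- on the polydisc
    have hS : ball x ε ×ˢ ball (0 : ℂ) ε ⊆ ball x ε₁ ×ˢ ball (0 : ℂ) ε₁ :=
      prod_mono (ball_subset_ball (min_le_left _ _)) (ball_subset_ball (min_le_left _ _))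
    have hS' : ball x ε ×ˢ ball (0 : ℂ) ε ⊆ ball x ε₂ ×ˢ ball (0 : ℂ) ε₂ :=
      prod_mono (ball_subset_ball (min_le_right _ _)) (ball_subset_ball (min_le_right _ _))
    have hop : IsOpen (ball x ε ×ˢ ball (0 : ℂ) ε) := isOpen_ball.prod isOpen_ball
    have slice : ∀ (F : ℂ → ℂ → ℂ), JD F (ball x ε ×ˢ ball 0 ε) → ∀ Y : ℂ, ‖Y‖ < ε →
        AnalyticOnNhd ℂ (fun s => F s Y) (ball x ε) := by
      intro F hF Y hY
      apply DifferentiableOn.analyticOnNhd _ isOpen_ball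
      intro s hs
      apply DifferentiableAt.differentiableWithinAt
      have := JD_at hF hop (p := (s, Y)) ⟨hs, by simpa using hY⟩
      exact DifferentiableAt.comp s (f := fun s : ℂ => (s, Y)) this
        (differentiableAt_id.prodMk (differentiableAt_const _))
    have hfin : ∀ Y : ℂ, ‖Y‖ < ε → ‖Y‖ < δ → ∀ s ∈ ball x ε, f s Y = g s Y := by
      intro Y hY1 hY2
      have a1 := slice f (JD_mono hf1 hS) Y hY1
      have a2 := slice g (JD_mono hg1 hS') Y hY1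
      have hy' : y ∈ ball x ε := by rw [mem_ball, dist_comm]; exact hyx
      have hev : (fun s => f s Y) =ᶠ[𝓝 y] fun s => g s Y := by
        filter_upwards [ball_mem_nhds y hδ] with s hs
        apply hy (s, Y)
        rw [mem_ball, Prod.dist_eq]
        exact max_lt hs (by simpa using hY2)
      exact a1.eqOn_of_preconnected_of_eventuallyEq a2 (convex_ball x ε).isPreconnected hy' hev
    show ∀ᶠ p : ℂ × ℂ in 𝓝 (x, 0), f p.1 p.2 = g p.1 p.2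
    have c1 : ∀ᶠ p : ℂ × ℂ in 𝓝 (x, 0), p.1 ∈ ball x ε :=
      (isOpen_ball.preimage continuous_fst).mem_nhds (mem_ball_self hε0)
    have c2 : ∀ᶠ p : ℂ × ℂ in 𝓝 (x, 0), ‖p.2‖ < min ε δ := by
      refine (isOpen_lt continuous_snd.norm continuous_const).mem_nhds ?_
      simpa using lt_min hε0 hδ
    filter_upwards [c1, c2] with p hp1 hp2
    exact hfin p.2 (hp2.trans_le (min_le_left _ _)) (hp2.trans_le (min_le_right _ _)) p.1 hp1
  exact fun x hx => key hx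

variable {S₁ S₂ F : ℂ → ℂ → ℂ} {r M κ η η₀ : ℝ} {σ : ℂ}

theorem extend_std (H : StepMap S₁ S₂ r M) (h : Sml r M κ η) (hη₀ : 2 * η ≤ η₀)
    (hηκ : η ≤ κ / 4) (hF : Inv S₁ S₂ F σ κ η₀) :
    ∃ δ > 0, δ ≤ κ / 16 ∧ ∃ F' : ℂ → ℂ → ℂ,
      JD F' ({x | |x.re| < δ ∧ -(κ / 2) < x.im ∧ x.im < δ} ×ˢ ball 0 δ) ∧
      ∀ x : ℂ, |x.re| < δ → -(κ / 2) < x.im → x.im < -(κ / 8) → ∀ Y : ℂ, ‖Y‖ < δ →
        F' x Y = F x Y := by
  have hκ := h.hκ
  have hη := h.hη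
  -- the upper sector
  set vu : ℂ → ℂ → ℂ := fun x Y => σ * vd S₁ S₂ F κ x (-Y) with hvu
  set Ω₁ : Set (ℂ × ℂ) := B1 κ ×ˢ ball 0 η with hΩ₁
  set Nd : Set (ℂ × ℂ) := {p | p.1 ∈ B2 κ ∧ ‖p.2‖ < η ∧ 1 / 2 * ‖p.2‖ < -p.2.im} with hNd
  set Nu : Set (ℂ × ℂ) := {p | p.1 ∈ B2 κ ∧ ‖p.2‖ < η ∧ 1 / 2 * ‖p.2‖ < p.2.im} with hNu
  have oB2 : IsOpen {p : ℂ × ℂ | p.1 ∈ B2 κ} :=
    (isOpen_box (2 * κ) (-(5 * κ)) (2 * κ)).preimage continuous_fst
  have oη : IsOpen {p : ℂ × ℂ | ‖p.2‖ < η} := isOpen_lt continuous_snd.norm continuous_const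
  have oNd : IsOpen Nd := oB2.inter (oη.inter (isOpen_lt (continuous_const.mul continuous_snd.norm)
        (Complex.continuous_im.comp continuous_snd).neg))
  have oNu : IsOpen Nu := oB2.inter (oη.inter (isOpen_lt (continuous_const.mul continuous_snd.norm)
        (Complex.continuous_im.comp continuous_snd)))
  have oΩ₁ : IsOpen Ω₁ := (isOpen_box (2 * κ) (-(5 * κ)) (-(κ / 8))).prod isOpen_ball
  have jF : JD F Ω₁ := by
    rintro ⟨x, Y⟩ ⟨hx, hY⟩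
    apply DifferentiableAt.differentiableWithinAt
    apply hF.diff x (B1_sub_KB hκ hx) Y
    simp only [mem_ball, dist_zero_right] at hY
    linarith
  have jd : JD (vd S₁ S₂ F κ) Nd := by
    rintro ⟨x, Y⟩ ⟨hx, hY, hs⟩
    exact (vd_diff H h hη₀ hηκ hF hx hY hs).differentiableWithinAt
  have ju : JD vu Nu := by
    rintro ⟨x, Y⟩ ⟨hx, hY, hs⟩
    apply DifferentiableAt.differentiableWithinAt
    have h1 : DifferentiableAt ℂ (fun p : ℂ × ℂ => vd S₁ S₂ F κ p.1 p.2) (x, -Y) :=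
      vd_diff H h hη₀ hηκ hF hx (by rwa [norm_neg]) (by rw [norm_neg, neg_im, neg_neg]; exact hs)
    have h2 : DifferentiableAt ℂ (fun p : ℂ × ℂ => (p.1, -p.2)) (x, Y) :=
      differentiableAt_fst.prodMk differentiableAt_snd.neg
    have h3 := DifferentiableAt.comp (x, Y) (f := fun p : ℂ × ℂ => (p.1, -p.2)) h1 h2
    exact h3.const_mul σ
  obtain ⟨f₁, hf₁J, hf₁F, hf₁d⟩ := JD_glue oΩ₁ oNd jF jd (by
    rintro ⟨x, Y⟩ ⟨h1, h2⟩ ⟨h3, h4, h5⟩
    exact vd_eq_F H h hη₀ hηκ hF h1 h4 h5)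
  obtain ⟨f, hfJ, hf1, hfu⟩ := JD_glue (oΩ₁.union oNd) oNu hf₁J ju (by
    rintro ⟨x, Y⟩ h1 ⟨h3, h4, h5⟩
    rcases h1 with ⟨h1, h2⟩ | ⟨-, -, h2⟩
    · have e1 := hf₁F (x, Y) ⟨h1, h2⟩
      simp only at e1 ⊢
      rw [e1, hvu]
      simp only
      rw [vd_eq_F H h hη₀ hηκ hF h1 (by rwa [norm_neg]) (by rw [norm_neg, neg_im, neg_neg]; exact h5)]
      have := hF.par x (B1_sub_KB hκ h1) (-Y) (by
        rw [norm_neg]
        simp only at h4
        linarith)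
      rw [neg_neg] at this
      exact this.symm
    · simp only at h2 h5
      have := norm_nonneg Y
      linarith)
  set Ω : Set (ℂ × ℂ) := (Ω₁ ∪ Nd) ∪ Nu with hΩ
  have oΩ : IsOpen Ω := (oΩ₁.union oNd).union oNu
  set R : ℝ := η / 2 with hR
  have hR0 : 0 < R := by positivity
  set T : Set ℂ := {s | |s.re| < κ ∧ -(5 * κ) < s.im ∧ s.im < -(5 / 8 * κ)} with hT
  set T₀ : Set ℂ := {s | |s.re| < κ ∧ -(5 * κ) < s.im ∧ s.im < -(3 * κ)} with hT₀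
  have memB2 : ∀ τ ∈ T, ∀ Y : ℂ, ‖Y‖ ≤ R → τ + bar κ R Y ∈ B2 κ := by
    intro τ hτ Y hY
    obtain ⟨b1, b2, b3⟩ := bar_bounds hκ hR0 hY
    have t1 := abs_lt.1 hτ.1
    have t2 := abs_le.1 b1
    refine ⟨?_, ?_, ?_⟩
    · rw [add_re, abs_lt]; constructor <;> linarith [t1.1, t1.2, t2.1, t2.2]
    · rw [add_im]; linarith [hτ.2.1]
    · rw [add_im]; linarith [hτ.2.2]
  have hcore := hartogs_core oΩ hfJ (w₁ := 0) hR0 (φ := bar κ R) isOpen_univ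
    (bar_diff κ R).differentiableOn (subset_univ _) (T := T) (T₀ := T₀)
    (isOpen_box κ (-(5 * κ)) (-(5 / 8 * κ)))
    (by
      intro τ hτ Y hY
      rw [mem_sphere, dist_zero_right] at hY
      have h1 := memB2 τ hτ Y hY.le
      have h2 : ‖Y‖ < η := by rw [hY, hR]; linarith
      rcases lt_or_ge (1 / 2 * ‖Y‖) (-Y.im) with h3 | h3
      · exact Or.inl (Or.inr ⟨h1, h2, h3⟩)
      rcases lt_or_ge (1 / 2 * ‖Y‖) Y.im with h4 | h4
      · exact Or.inr ⟨h1, h2, h4⟩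
      refine Or.inl (Or.inl ⟨⟨h1.1, h1.2.1, ?_⟩, by simpa using h2⟩)
      have h5 := bar_low hκ hR0 hY (abs_le.2 ⟨by linarith, h4⟩)
      rw [add_im]
      linarith [hτ.2.2])
    (isOpen_box κ (-(5 * κ)) (-(3 * κ)))
    (fun τ hτ => ⟨hτ.1, hτ.2.1, by have := hτ.2.2; linarith⟩)
    ⟨-(4 * κ : ℝ) * I, by
      refine ⟨?_, ?_, ?_⟩
      · simp [hκ]
      · simp; linarith
      · simp; linarith⟩
    (by
      intro τ hτ Y hY
      rw [mem_closedBall, dist_zero_right] at hY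
      have hτT : τ ∈ T := ⟨hτ.1, hτ.2.1, by have := hτ.2.2; linarith⟩
      have h1 := memB2 τ hτT Y hY
      obtain ⟨b1, b2, b3⟩ := bar_bounds hκ hR0 hY
      refine Or.inl (Or.inl ⟨⟨h1.1, h1.2.1, ?_⟩, ?_⟩)
      · rw [add_im]; linarith [hτ.2.2]
      · rw [mem_ball, dist_zero_right]
        exact lt_of_le_of_lt hY (by rw [hR]; linarith))
    (by
      intro Y hY
      rw [mem_ball, dist_zero_right] at hY
      have hYη : ‖Y‖ < η := hY.trans (by rw [hR]; linarith)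
      apply Convex.isPreconnected
      by_cases hs : 1 / 2 * ‖Y‖ < -Y.im ∨ 1 / 2 * ‖Y‖ < Y.im
      · have e : {τ | τ ∈ T ∧ (τ + bar κ R Y, Y) ∈ Ω} = T := by
          ext τ
          refine ⟨fun h1 => h1.1, fun h1 => ⟨h1, ?_⟩⟩
          have h2 := memB2 τ h1 Y hY.le
          rcases hs with hs | hs
          · exact Or.inl (Or.inr ⟨h2, hYη, hs⟩)
          · exact Or.inr ⟨h2, hYη, hs⟩
        rw [e]
        exact convex_box _ _ _
      · push Not at hs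
        have e : {τ | τ ∈ T ∧ (τ + bar κ R Y, Y) ∈ Ω} =
            T ∩ (fun τ => τ + bar κ R Y) ⁻¹' (B1 κ) := by
          ext τ
          constructor
          · rintro ⟨h1, (h2 | h2) | h2⟩
            · exact ⟨h1, h2.1⟩
            · exact absurd h2.2.2 (not_lt.2 hs.1)
            · exact absurd h2.2.2 (not_lt.2 hs.2)
          · rintro ⟨h1, h2⟩
            exact ⟨h1, Or.inl (Or.inl ⟨h2, by simpa using hYη⟩)⟩
        rw [e]
        exact (convex_box _ _ _).inter ((convex_box _ _ _).translate_preimage_left _))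
  obtain ⟨hJ, hEq⟩ := hcore
  -- a small neighbourhood
  obtain ⟨δ₁, hδ₁, hbar⟩ : ∃ δ₁ > 0, ∀ Y : ℂ, ‖Y‖ < δ₁ → ‖bar κ R Y - I * κ‖ < κ / 16 := by
    have hc : Continuous (bar κ R) := (bar_diff κ R).continuous
    have h0 : bar κ R 0 = I * κ := by simp [bar]
    obtain ⟨δ₁, hδ₁, h2⟩ := Metric.continuous_iff.1 hc 0 (κ / 16) (by positivity)
    refine ⟨δ₁, hδ₁, fun Y hY => ?_⟩
    have := h2 Y (by simpa using hY)
    rwa [dist_eq_norm, h0] at this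
  set δ : ℝ := min (min δ₁ R) (κ / 16) with hδ
  have hδ0 : 0 < δ := lt_min (lt_min hδ₁ hR0) (by positivity)
  have hδ1 : δ ≤ δ₁ := (min_le_left _ _).trans (min_le_left _ _)
  have hδR : δ ≤ R := (min_le_left _ _).trans (min_le_right _ _)
  have hδκ : δ ≤ κ / 16 := min_le_right _ _
  have hmemT : ∀ x Y : ℂ, |x.re| < δ → -(κ / 2) < x.im → x.im < δ → ‖Y‖ < δ →
      x - bar κ R Y ∈ T := by
    intro x Y h1 h2 h3 h4
    have h5 := hbar Y (h4.trans_le hδ1)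
    have h6 := (Complex.abs_re_le_norm _).trans_lt h5
    have h7 := (Complex.abs_im_le_norm _).trans_lt h5
    rw [sub_re] at h6
    rw [sub_im] at h7
    simp only [mul_re, I_re, ofReal_re, zero_mul, I_im, ofReal_im, mul_zero, sub_self, sub_zero,
      mul_im, one_mul, zero_add] at h6 h7
    have h8 := abs_lt.1 h6
    have h9 := abs_lt.1 h7
    have h10 := abs_lt.1 h1
    refine ⟨?_, ?_, ?_⟩
    · rw [sub_re, abs_lt]; constructor <;> linarith [h8.1, h8.2, h10.1, h10.2]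
    · rw [sub_im]; linarith [h9.1, h9.2]
    · rw [sub_im]; linarith [h9.1, h9.2]
  refine ⟨δ, hδ0, hδκ, hart f (bar κ R) 0 R, ?_, ?_⟩
  · refine JD_mono hJ ?_
    rintro ⟨x, Y⟩ ⟨⟨h1, h2, h3⟩, h4⟩
    simp only [mem_ball, dist_zero_right] at h4
    refine ⟨?_, hmemT x Y h1 h2 h3 h4⟩
    rw [mem_ball, dist_zero_right]
    exact h4.trans_le hδR
  · intro x h1 h2 h3 Y h4
    have hY1 : Y ∈ ball (0 : ℂ) R := by
      rw [mem_ball, dist_zero_right]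
      exact h4.trans_le hδR
    have hx1 : x ∈ B1 κ := ⟨by linarith, by linarith, h3⟩
    have hYη : ‖Y‖ < η := by
      have : ‖Y‖ < R := h4.trans_le hδR
      rw [hR] at this; linarith
    have hΩ1 : (x, Y) ∈ Ω₁ := ⟨hx1, by simpa using hYη⟩
    have e1 := hEq (x, Y) hY1 (hmemT x Y h1 h2 (by linarith) h4) (Or.inl (Or.inl hΩ1))
    simp only at e1
    have e2 := hf1 (x, Y) (Or.inl hΩ1)
    have e3 := hf₁F (x, Y) hΩ1
    simp only at e2 e3
    rw [e1, e2, e3]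

end Vale.Agent.P097.H367.PropD
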