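import Vale.Agent.P097.H367.PropT

/-! # P097 / NZ-D3: goodness propagates inside a disc of regularity -/

set_option linter.all false

open scoped ComplexConjugate Topology
open Filter Metric Set Complex

namespace Vale.Agent.P097.H367.PropD

open Vale.Agent.P097.NZ

/-- goodness is an open condition -/
theorem Good.eventually {u : ℕ → ℂ → ℂ} {S : ℂ × ℂ → ℂ × ℂ} {z : ℂ} (h : Good u S z) :
    ∀ᶠ z' in 𝓝 z, Good u S z' := by
  obtain ⟨C, B, r, hB, hr, hbd⟩ := h.bd
  have h1 : ∀ᶠ z' in 𝓝 z, ∀ᶠ p in 𝓝 ((z', 0) : ℂ × ℂ), Sm u (S p) = Sm u p :=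
    eventually_axis h.inv.eventually_nhds
  filter_upwards [h.hol.eventually_nhds, h.odd.eventually_nhds, h1, ball_mem_nhds z hr]
    with z' a1 a2 a3 a4
  refine ⟨a1, ?_, a3, a2⟩
  refine ⟨C, B, r - dist z' z, hB, by rw [mem_ball] at a4; linarith, fun z'' hz'' k => ?_⟩
  apply hbd
  rw [mem_ball] at hz'' ⊢
  linarith [dist_triangle z'' z' z]

/-- **NZ-D3.** -/
theorem propB (A : RootA) : PropB := by
  intro ρ z₀ z₁ r hρ hz₁ hg
  set G : Set ℂ := {z | z ∈ ball z₀ r ∧ Good (Ik ρ) (TT ρ) z} with hG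
  have hGo : IsOpen G := by
    rw [isOpen_iff_mem_nhds]
    rintro z ⟨hz, h⟩
    filter_upwards [isOpen_ball.mem_nhds hz, Good.eventually h] with z' h1 h2 using ⟨h1, h2⟩
  have key : ball z₀ r ⊆ G := by
    refine (convex_ball z₀ r).isPreconnected.subset_of_closure_inter_subset hGo
      ⟨z₁, hz₁, hz₁, hg⟩ ?_
    rintro z ⟨hz, hzb⟩
    by_contra hzG
    obtain ⟨ε, hε, hsub⟩ : ∃ ε > 0, closedBall z ε ⊆ ball z₀ r := by
      obtain ⟨ε, hε, h⟩ := Metric.isOpen_iff.1 isOpen_ball z hzb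
      exact ⟨ε / 2, by positivity, (closedBall_subset_ball (by linarith)).trans h⟩
    obtain ⟨w, hwG, hwz⟩ := Metric.mem_closure_iff.1 hz (ε / 2) (by positivity)
    set K : Set ℂ := closedBall z ε \ G with hK
    have hKc : IsCompact K := (isCompact_closedBall z ε).diff hGo
    have hzK : z ∈ K := ⟨mem_closedBall_self hε.le, hzG⟩
    obtain ⟨y, hyK, hy⟩ := hKc.exists_infDist_eq_dist ⟨z, hzK⟩ w
    have hyw : dist w y ≤ dist w z := by rw [← hy]; exact infDist_le_dist_of_mem hzK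
    rw [dist_comm] at hwz
    have hb : ∀ v ∈ ball w (dist w y), Good (Ik ρ) (TT ρ) v := by
      intro v hv
      rw [mem_ball] at hv
      by_contra hvG
      have h1 : v ∈ K := by
        refine ⟨?_, fun h => hvG h.2⟩
        rw [mem_closedBall]
        linarith [dist_triangle v w z]
      have h2 := infDist_le_dist_of_mem (x := w) h1
      rw [hy, dist_comm w v] at h2
      linarith
    have hyb : y ∈ ball z₀ r := hsub hyK.1
    have hwy : w ≠ y := fun h => hyK.2 (h ▸ hwG)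
    exact hyK.2 ⟨hyb, propT A ρ y w (hρ y hyb).1 (hρ y hyb).2 hwy hb⟩
  exact fun z hz => (key hz).2

end Vale.Agent.P097.H367.PropD
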