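import Vale.Agent.P097.H128.NZ.Defs3
import Vale.Agent.P097.H128.NZ.End1
import Vale.Agent.P097.H367.PropBall

/-! # P097 / NZ-H1: goodness propagates over a connected piece of the surface of `ρ` -/

set_option linter.all false

open scoped ComplexConjugate Topology
open Filter Metric Set Complex

namespace Vale.Agent.P097.H367.PropD

open Vale.Agent.P097.NZ

/-- the chord map depends on the germ of `ρ` only -/
theorem TT_congr {ρ ρ' : ℂ → ℂ} {z : ℂ} (h : ρ =ᶠ[𝓝 z] ρ') :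
    ∀ᶠ p in 𝓝 ((z, 0) : ℂ × ℂ), TT ρ p = TT ρ' p := by
  obtain ⟨r, hr, h1⟩ := Metric.eventually_nhds_iff_ball.1 h
  have h2 : (0 : ℝ) < r / 2 := by positivity
  have h3 : (0 : ℝ) < r / 8 := by positivity
  refine eventually_of_polydisc h2 h3 fun z' hz' δ hδ => ?_
  have h4 : root (kr ρ (z', δ)) = root (kr ρ' (z', δ)) := by
    refine root_congr one_ne_zero fun v hv => ?_
    rw [one_mul, kr, kr]
    dsimp only
    rw [h1]
    rw [mem_ball, dist_eq_norm] at hz' ⊢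
    rw [mem_ball_zero_iff] at hδ
    rw [mem_closedBall_zero_iff] at hv
    have e : z' + δ * v - z = (z' - z) + δ * v := by ring
    rw [e]
    have h5 : ‖δ * v‖ ≤ r / 8 * 3 := by
      rw [norm_mul]
      exact mul_le_mul hδ.le hv (norm_nonneg _) h3.le
    linarith [norm_add_le (z' - z) (δ * v)]
  simp only [TT, h4]

/-- the iterates of the chord map depend on the germ of `ρ` only -/
theorem TT_iter_congr (A : RootA) {ρ ρ' : ℂ → ℂ} {z : ℂ} (h : ρ =ᶠ[𝓝 z] ρ')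
    (hρ : AnalyticAt ℂ ρ z) (h0 : ρ z ≠ 0) (j : ℕ) :
    ∀ᶠ p in 𝓝 ((z, 0) : ℂ × ℂ), (TT ρ)^[j] p = (TT ρ')^[j] p := by
  induction j with
  | zero => exact Eventually.of_forall fun _ => rfl
  | succ j ih =>
    have h1 : Tendsto ((TT ρ)^[j]) (𝓝 ((z, 0) : ℂ × ℂ)) (𝓝 (z, 0)) := by
      have := (iter_an A hρ h0 j).continuousAt.tendsto
      rwa [iter_axis] at this
    filter_upwards [ih, h1.eventually (TT_congr h)] with p h2 h3
    rw [Function.iterate_succ', Function.iterate_succ', Function.comp_apply, Function.comp_apply,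
      ← h2, h3]

/-- the canonical coefficients depend on the germ of `ρ` only -/
theorem Ik_congr (A : RootA) {ρ ρ' : ℂ → ℂ} {z : ℂ} (h : ρ =ᶠ[𝓝 z] ρ')
    (hρ : AnalyticAt ℂ ρ z) (h0 : ρ z ≠ 0) (k : ℕ) : Ik ρ k z = Ik ρ' k z := by
  rw [Ik, Ik, h.self_of_nhds]
  have h1 : ∀ᶠ p in 𝓝 ((z, 0) : ℂ × ℂ), Complex.sin p.2 * Dk (TT ρ) k p =
      Complex.sin p.2 * Dk (TT ρ') k p := by
    have h2 : ∀ᶠ p in 𝓝 ((z, 0) : ℂ × ℂ), ∀ j ∈ Finset.range (k + 1),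
        (TT ρ)^[j] p = (TT ρ')^[j] p :=
      (Finset.eventually_all _).2 fun j _ => TT_iter_congr A h hρ h0 j
    filter_upwards [h2] with p hp
    congr 1
    rw [Dk, Dk]
    refine Finset.sum_congr rfl fun n hn => ?_
    congr 1
    refine Finset.sum_congr rfl fun j hj => ?_
    rw [hp j]
    rw [Finset.mem_Icc] at hn
    rw [Finset.mem_range] at hj ⊢
    omega
  rw [(tc_congr h1).self_of_nhds (k - 1)]

/-- goodness depends on the germ of `ρ` only -/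
theorem Good.of_germ (A : RootA) {ρ ρ' : ℂ → ℂ} {z : ℂ} (h : ρ =ᶠ[𝓝 z] ρ')
    (hρ : AnalyticAt ℂ ρ z) (h0 : ρ z ≠ 0) (hg : Good (Ik ρ) (TT ρ) z) :
    Good (Ik ρ') (TT ρ') z := by
  have hI : ∀ᶠ z' in 𝓝 z, ∀ k, Ik ρ k z' = Ik ρ' k z' := by
    filter_upwards [h.eventually_nhds, hρ.eventually_analyticAt,
      hρ.continuousAt.eventually_ne h0] with z' h1 h2 h3 k
    exact Ik_congr A h1 h2 h3 k
  have hS := Sm_congr hI
  refine ⟨?_, hg.bd.congr hI, ?_, ?_⟩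
  · filter_upwards [hg.hol, hI.eventually_nhds] with z' h1 h2 k
    refine (h1 k).congr ?_
    filter_upwards [h2] with z'' h3 using h3 k
  · have h1 := TT_tendsto A hρ h0
    filter_upwards [hg.inv, hS, h1.eventually hS, TT_congr h] with p a1 a2 a3 a4
    rw [← a4, ← a3, a1, a2]
  · filter_upwards [hg.odd, hI] with z' h1 h2 k hk
    rw [← h2 k, h1 k hk]

/-- local propagation on the surface -/
theorem contGood_local (A : RootA) {U : Set ℂ} {π g : ℂ → ℂ} (hU : IsOpen U)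
    (dπ : DifferentiableOn ℂ π U) (dg : DifferentiableOn ℂ g U)
    (ne : ∀ u ∈ U, deriv π u ≠ 0 ∧ g u ≠ 0) {u₁ : ℂ} (h₁ : u₁ ∈ U) :
    ∃ V ∈ 𝓝 u₁, ∀ u ∈ V, ∀ u' ∈ V, GoodAt π g u → GoodAt π g u' := by
  have hπ1 : AnalyticAt ℂ π u₁ := dπ.analyticAt (hU.mem_nhds h₁)
  have hst : HasStrictDerivAt π (deriv π u₁) u₁ := hπ1.hasStrictDerivAt
  set φ : ℂ → ℂ := hst.localInverse π (deriv π u₁) u₁ (ne u₁ h₁).1 with hφ
  have hr : ∀ᶠ z in 𝓝 (π u₁), π (φ z) = z := hst.eventually_right_inverse (ne u₁ h₁).1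
  have hl : ∀ᶠ u in 𝓝 u₁, φ (π u) = u := hst.eventually_left_inverse (ne u₁ h₁).1
  have hφu : φ (π u₁) = u₁ := hl.self_of_nhds
  have hφa : AnalyticAt ℂ φ (π u₁) := hπ1.analyticAt_localInverse (ne u₁ h₁).1
  have hc' : Tendsto φ (𝓝 (π u₁)) (𝓝 u₁) := by
    have := hφa.continuousAt.tendsto; rwa [hφu] at this
  obtain ⟨r, hr0, hb⟩ := Metric.eventually_nhds_iff_ball.1
    ((hφa.eventually_analyticAt.and (hc'.eventually (hU.mem_nhds h₁))).and
      (hr.and (hc'.eventually hl)))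
  set ρ₁ : ℂ → ℂ := fun z => g (φ z) with hρ₁
  have hρa : ∀ z ∈ ball (π u₁) r, AnalyticAt ℂ ρ₁ z ∧ ρ₁ z ≠ 0 := by
    intro z hz
    obtain ⟨⟨a1, a2⟩, -⟩ := hb z hz
    exact ⟨(dg.analyticAt (hU.mem_nhds a2)).comp a1, (ne _ a2).2⟩
  have hV : {u | π u ∈ ball (π u₁) r ∧ (∀ᶠ u' in 𝓝 u, φ (π u') = u') ∧ u ∈ U} ∈ 𝓝 u₁ := by
    filter_upwards [hπ1.continuousAt.eventually (ball_mem_nhds _ hr0), hl.eventually_nhds,
      hU.mem_nhds h₁] with u a1 a2 a3 using ⟨a1, a2, a3⟩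
  refine ⟨_, hV, ?_⟩
  rintro u ⟨hu1, hu2, hu3⟩ u' ⟨hu1', hu2', hu3'⟩ hg ρ hρ
  have h2 : Good (Ik ρ₁) (TT ρ₁) (π u) := by
    apply hg
    filter_upwards [hu2] with w hw
    rw [hρ₁]
    dsimp only
    rw [hw]
  have h3 : Good (Ik ρ₁) (TT ρ₁) (π u') := propB A ρ₁ (π u₁) (π u) r hρa hu1 h2 _ hu1'
  refine Good.of_germ A ?_ (hρa _ hu1').1 (hρa _ hu1').2 h3
  have hφu' : φ (π u') = u' := hu2'.self_of_nhds
  have hc2 : Tendsto φ (𝓝 (π u')) (𝓝 u') := by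
    have := (hb _ hu1').1.1.continuousAt.tendsto; rwa [hφu'] at this
  filter_upwards [hc2.eventually hρ, isOpen_ball.mem_nhds hu1'] with z hz hz'
  rw [(hb z hz').2.1] at hz
  rw [hz]

/-- **NZ-H1.** -/
theorem contGood (A : RootA) : ContGood := by
  intro U π g u₀ hU hc dπ dg ne hu₀ hg u hu
  refine hc.induction₂' (fun x y => GoodAt π g x → GoodAt π g y) ?_ ?_ hu₀ hu hg
  · intro x hx
    obtain ⟨V, hV, h⟩ := contGood_local A hU dπ dg ne hx
    filter_upwards [nhdsWithin_le_nhds hV] with y hy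
    exact ⟨h x (mem_of_mem_nhds hV) y hy, h y hy x (mem_of_mem_nhds hV)⟩
  · intro x y z _ _ _ h1 h2 h3
    exact h2 (h1 h3)

end Vale.Agent.P097.H367.PropD
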