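import Vale.Agent.P097.H543.Hartogs

/-! # P097 / NZ-D, part 1: orbits of a map close to `(x, Y) ↦ (x + Y, Y)` -/

set_option linter.all false

open scoped ComplexConjugate Topology
open Filter Metric Set Complex

namespace Vale.Agent.P097.H367.PropD

open Vale.Agent.P097.TA Vale.Agent.P097.H543

/-- the map of pairs -/
def stp (S₁ S₂ : ℂ → ℂ → ℂ) (p : ℂ × ℂ) : ℂ × ℂ := (S₁ p.1 p.2, S₂ p.1 p.2)

/-- a holomorphic map `(x, Y) ↦ (x + Y + O(Y²), Y + O(Y²))` -/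
structure StepMap (S₁ S₂ : ℂ → ℂ → ℂ) (r M : ℝ) : Prop where
  hr : 0 < r
  hM : 0 ≤ M
  h1 : JD S₁ (ball 0 r ×ˢ ball 0 r)
  h2 : JD S₂ (ball 0 r ×ˢ ball 0 r)
  b1 : ∀ x Y : ℂ, ‖x‖ < r → ‖Y‖ < r → ‖S₁ x Y - (x + Y)‖ ≤ M * ‖Y‖ ^ 2
  b2 : ∀ x Y : ℂ, ‖x‖ < r → ‖Y‖ < r → ‖S₂ x Y - Y‖ ≤ M * ‖Y‖ ^ 2

/-- smallness of the parameters -/
structure Sml (r M κ η : ℝ) : Prop where
  hκ : 0 < κ
  hη : 0 < η
  κr : 40 * κ ≤ r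
  κM : 4000 * (M * κ) ≤ 1
  ηr : 2 * η ≤ r
  ηM : 400 * (M * η) ≤ 1

variable {S₁ S₂ : ℂ → ℂ → ℂ} {r M κ η : ℝ}

theorem orb_est (H : StepMap S₁ S₂ r M) (h : Sml r M κ η) {x Y : ℂ} (hx : ‖x‖ < 20 * κ)
    (hY : ‖Y‖ < η) (n : ℕ) (hn : n * ‖Y‖ ≤ 10 * κ) :
    ‖((stp S₁ S₂)^[n] (x, Y)).2 - Y‖ ≤ 4 * M * n * ‖Y‖ ^ 2 ∧
      ‖((stp S₁ S₂)^[n] (x, Y)).1 - (x + n * Y)‖ ≤ n * ‖Y‖ / 50 := by
  have hκ := h.hκ
  have hη := h.hη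
  have hM := H.hM
  have hY0 := norm_nonneg Y
  induction n with
  | zero => simp
  | succ n ih =>
    have hn' : (n : ℝ) * ‖Y‖ ≤ 10 * κ := by
      push_cast at hn
      nlinarith
    obtain ⟨i1, i2⟩ := ih hn'
    rw [Function.iterate_succ_apply']
    set p := (stp S₁ S₂)^[n] (x, Y) with hp
    have hn0 : (0 : ℝ) ≤ n := Nat.cast_nonneg n
    have e1 : 4 * M * n * ‖Y‖ ^ 2 ≤ ‖Y‖ / 100 := by
      have : M * (n * ‖Y‖) ≤ M * (10 * κ) := mul_le_mul_of_nonneg_left hn' hM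
      have h3 : 4 * M * n * ‖Y‖ ^ 2 = 4 * (M * (n * ‖Y‖)) * ‖Y‖ := by ring
      rw [h3]
      have h4 : 4 * (M * (n * ‖Y‖)) ≤ 1 / 100 := by
        have := h.κM
        nlinarith
      nlinarith
    have e2 : ‖p.2‖ ≤ 101 / 100 * ‖Y‖ := by
      calc ‖p.2‖ = ‖(p.2 - Y) + Y‖ := by rw [sub_add_cancel]
        _ ≤ ‖p.2 - Y‖ + ‖Y‖ := norm_add_le _ _
        _ ≤ _ := by linarith
    have e3 : ‖p.2‖ < r := by
      have := h.ηr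
      nlinarith
    have e4 : ‖p.1‖ < r := by
      have h5 : ‖p.1‖ ≤ ‖p.1 - (x + n * Y)‖ + ‖x + n * Y‖ := by
        calc ‖p.1‖ = ‖(p.1 - (x + n * Y)) + (x + n * Y)‖ := by rw [sub_add_cancel]
          _ ≤ _ := norm_add_le _ _
      have h6 : ‖x + n * Y‖ ≤ ‖x‖ + n * ‖Y‖ := by
        calc ‖x + n * Y‖ ≤ ‖x‖ + ‖(n : ℂ) * Y‖ := norm_add_le _ _
          _ = _ := by rw [norm_mul, Complex.norm_natCast]
      have h7 := h.κr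
      nlinarith
    have e5 := H.b1 p.1 p.2 e4 e3
    have e6 := H.b2 p.1 p.2 e4 e3
    have e7 : M * ‖p.2‖ ^ 2 ≤ 2 * M * ‖Y‖ ^ 2 := by
      have h5 : ‖p.2‖ ^ 2 ≤ (101 / 100 * ‖Y‖) ^ 2 := pow_le_pow_left₀ (norm_nonneg _) e2 2
      have h6 : ‖p.2‖ ^ 2 ≤ 2 * ‖Y‖ ^ 2 := by nlinarith [sq_nonneg ‖Y‖]
      calc M * ‖p.2‖ ^ 2 ≤ M * (2 * ‖Y‖ ^ 2) := mul_le_mul_of_nonneg_left h6 hM
        _ = _ := by ring
    have e8 : 2 * M * ‖Y‖ ^ 2 ≤ ‖Y‖ / 200 := by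
      have h5 : M * ‖Y‖ ≤ M * η := mul_le_mul_of_nonneg_left hY.le hM
      have h6 := h.ηM
      have h7 : 2 * M * ‖Y‖ ^ 2 = 2 * (M * ‖Y‖) * ‖Y‖ := by ring
      rw [h7]
      have h8 : 2 * (M * ‖Y‖) ≤ 1 / 200 := by linarith
      nlinarith
    constructor
    · show ‖S₂ p.1 p.2 - Y‖ ≤ _
      have h5 : S₂ p.1 p.2 - Y = (S₂ p.1 p.2 - p.2) + (p.2 - Y) := by ring
      rw [h5]
      refine (norm_add_le _ _).trans ?_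
      push_cast
      have : 4 * M * ((n : ℝ) + 1) * ‖Y‖ ^ 2 = 4 * M * n * ‖Y‖ ^ 2 + 4 * M * ‖Y‖ ^ 2 := by ring
      rw [this]
      have h9 : 0 ≤ M * ‖Y‖ ^ 2 := by positivity
      linarith
    · show ‖S₁ p.1 p.2 - (x + ((n + 1 : ℕ) : ℂ) * Y)‖ ≤ _
      have h5 : S₁ p.1 p.2 - (x + ((n + 1 : ℕ) : ℂ) * Y) =
          (S₁ p.1 p.2 - (p.1 + p.2)) + ((p.1 - (x + n * Y)) + (p.2 - Y)) := by
        push_cast
        ring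
      rw [h5]
      refine (norm_add_le _ _).trans ?_
      have h6 := norm_add_le (p.1 - (x + n * Y)) (p.2 - Y)
      push_cast
      have : ((n : ℝ) + 1) * ‖Y‖ / 50 = n * ‖Y‖ / 50 + ‖Y‖ / 50 := by ring
      rw [this]
      linarith

theorem orb_est' (H : StepMap S₁ S₂ r M) (h : Sml r M κ η) {x Y : ℂ} (hx : ‖x‖ < 20 * κ)
    (hY : ‖Y‖ < η) (n : ℕ) (hn : n * ‖Y‖ ≤ 10 * κ) :
    ‖((stp S₁ S₂)^[n] (x, Y)).2‖ < 2 * η ∧ ‖((stp S₁ S₂)^[n] (x, Y)).2‖ < r ∧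
      ‖((stp S₁ S₂)^[n] (x, Y)).1‖ < r := by
  obtain ⟨i1, i2⟩ := orb_est H h hx hY n hn
  have hκ := h.hκ
  have hη := h.hη
  have hM := H.hM
  have hY0 := norm_nonneg Y
  set p := (stp S₁ S₂)^[n] (x, Y) with hp
  have hn0 : (0 : ℝ) ≤ n := Nat.cast_nonneg n
  have e1 : 4 * M * n * ‖Y‖ ^ 2 ≤ ‖Y‖ / 100 := by
    have : M * (n * ‖Y‖) ≤ M * (10 * κ) := mul_le_mul_of_nonneg_left hn hM
    have h3 : 4 * M * n * ‖Y‖ ^ 2 = 4 * (M * (n * ‖Y‖)) * ‖Y‖ := by ring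
    rw [h3]
    have h4 : 4 * (M * (n * ‖Y‖)) ≤ 1 / 100 := by
      have := h.κM
      nlinarith
    nlinarith
  have e2 : ‖p.2‖ ≤ 101 / 100 * ‖Y‖ := by
    calc ‖p.2‖ = ‖(p.2 - Y) + Y‖ := by rw [sub_add_cancel]
      _ ≤ ‖p.2 - Y‖ + ‖Y‖ := norm_add_le _ _
      _ ≤ _ := by linarith
  have e3 : ‖p.2‖ < 2 * η := by nlinarith
  refine ⟨e3, e3.trans_le h.ηr, ?_⟩
  have h5 : ‖p.1‖ ≤ ‖p.1 - (x + n * Y)‖ + ‖x + n * Y‖ := by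
    calc ‖p.1‖ = ‖(p.1 - (x + n * Y)) + (x + n * Y)‖ := by rw [sub_add_cancel]
      _ ≤ _ := norm_add_le _ _
  have h6 : ‖x + n * Y‖ ≤ ‖x‖ + n * ‖Y‖ := by
    calc ‖x + n * Y‖ ≤ ‖x‖ + ‖(n : ℂ) * Y‖ := norm_add_le _ _
      _ = _ := by rw [norm_mul, Complex.norm_natCast]
  have h7 := h.κr
  nlinarith

theorem stp_diff (H : StepMap S₁ S₂ r M) {p : ℂ × ℂ} (h1 : ‖p.1‖ < r) (h2 : ‖p.2‖ < r) :
    DifferentiableAt ℂ (stp S₁ S₂) p := by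
  have ho : IsOpen (ball (0 : ℂ) r ×ˢ ball (0 : ℂ) r) := isOpen_ball.prod isOpen_ball
  have hp : p ∈ ball (0 : ℂ) r ×ˢ ball (0 : ℂ) r := by
    refine ⟨?_, ?_⟩ <;> rwa [mem_ball, dist_zero_right]
  exact (JD_at H.h1 ho hp).prodMk (JD_at H.h2 ho hp)

theorem iter_diff (H : StepMap S₁ S₂ r M) (h : Sml r M κ η) {x Y : ℂ} (hx : ‖x‖ < 20 * κ)
    (hY : ‖Y‖ < η) (n : ℕ) (hn : n * ‖Y‖ ≤ 10 * κ) :
    DifferentiableAt ℂ ((stp S₁ S₂)^[n]) (x, Y) := by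
  induction n with
  | zero => exact differentiableAt_id
  | succ n ih =>
    have hn' : (n : ℝ) * ‖Y‖ ≤ 10 * κ := by
      push_cast at hn
      have := norm_nonneg Y
      nlinarith
    obtain ⟨-, i2, i3⟩ := orb_est' H h hx hY n hn'
    rw [Function.iterate_succ']
    exact (stp_diff H i3 i2).comp (x, Y) (ih hn')

/-- the lower box -/
def KB (κ : ℝ) : Set ℂ := {x | |x.re| < 20 * κ ∧ -(20 * κ) < x.im ∧ x.im < -(κ / 8)}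

/-- the upper box -/
def B2 (κ : ℝ) : Set ℂ := {x | |x.re| < 2 * κ ∧ -(5 * κ) < x.im ∧ x.im < 2 * κ}

/-- the small lower box -/
def B1 (κ : ℝ) : Set ℂ := {x | |x.re| < 2 * κ ∧ -(5 * κ) < x.im ∧ x.im < -(κ / 8)}

theorem B1_sub_B2 (hκ : 0 < κ) : B1 κ ⊆ B2 κ := fun x hx => ⟨hx.1, hx.2.1, by
  have := hx.2.2; linarith⟩

theorem B1_sub_KB (hκ : 0 < κ) : B1 κ ⊆ KB κ := fun x hx => ⟨by have := hx.1; linarith, by
  have := hx.2.1; linarith, hx.2.2⟩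

theorem norm_B2 (hκ : 0 < κ) {x : ℂ} (hx : x ∈ B2 κ) : ‖x‖ < 20 * κ := by
  have h1 := Complex.norm_le_abs_re_add_abs_im x
  have h2 : |x.im| < 5 * κ := abs_lt.2 ⟨hx.2.1, by have := hx.2.2; linarith⟩
  have := hx.1
  linarith

theorem isOpen_box (a b c : ℝ) : IsOpen {x : ℂ | |x.re| < a ∧ b < x.im ∧ x.im < c} := by
  have h1 : IsOpen {x : ℂ | |x.re| < a} :=
    isOpen_lt (continuous_abs.comp Complex.continuous_re) continuous_const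
  have h2 : IsOpen {x : ℂ | b < x.im} := isOpen_lt continuous_const Complex.continuous_im
  have h3 : IsOpen {x : ℂ | x.im < c} := isOpen_lt Complex.continuous_im continuous_const
  exact h1.inter (h2.inter h3)

theorem convex_box (a b c : ℝ) : Convex ℝ {x : ℂ | |x.re| < a ∧ b < x.im ∧ x.im < c} := by
  have e : {x : ℂ | |x.re| < a ∧ b < x.im ∧ x.im < c} =
      (Complex.re ⁻¹' Ioo (-a) a) ∩ (Complex.im ⁻¹' Ioo b c) := by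
    ext x
    simp only [mem_setOf_eq, mem_inter_iff, mem_preimage, mem_Ioo, abs_lt]
  rw [e]
  exact ((convex_Ioo (-a) a).is_linear_preimage (f := Complex.reLm) Complex.reLm.isLinear).inter
    ((convex_Ioo b c).is_linear_preimage (f := Complex.imLm) Complex.imLm.isLinear)

/-- the invariant function near the lower box -/
structure Inv (S₁ S₂ F : ℂ → ℂ → ℂ) (σ : ℂ) (κ η₀ : ℝ) : Prop where
  diff : ∀ x ∈ KB κ, ∀ Y : ℂ, ‖Y‖ < η₀ → DifferentiableAt ℂ (fun p : ℂ × ℂ => F p.1 p.2) (x, Y)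
  inv : ∀ x ∈ KB κ, ∀ Y : ℂ, ‖Y‖ < η₀ → F (S₁ x Y) (S₂ x Y) = F x Y
  par : ∀ x ∈ KB κ, ∀ Y : ℂ, ‖Y‖ < η₀ → F x (-Y) = σ * F x Y

variable {F : ℂ → ℂ → ℂ} {σ : ℂ} {η₀ : ℝ}

theorem inv_iter (hF : Inv S₁ S₂ F σ κ η₀) (p : ℂ × ℂ) (m k : ℕ)
    (h : ∀ j < k, ((stp S₁ S₂)^[m + j] p).1 ∈ KB κ ∧ ‖((stp S₁ S₂)^[m + j] p).2‖ < η₀) :
    F ((stp S₁ S₂)^[m + k] p).1 ((stp S₁ S₂)^[m + k] p).2 =
      F ((stp S₁ S₂)^[m] p).1 ((stp S₁ S₂)^[m] p).2 := by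
  induction k with
  | zero => rfl
  | succ k ih =>
    have h1 := ih fun j hj => h j (hj.trans (Nat.lt_succ_self k))
    obtain ⟨h2, h3⟩ := h k (Nat.lt_succ_self k)
    rw [← h1, ← add_assoc, Function.iterate_succ_apply']
    exact hF.inv _ h2 _ h3

/-- position of the orbit, sector pointing downwards -/
theorem orb_pos (H : StepMap S₁ S₂ r M) (h : Sml r M κ η) {x Y : ℂ} (hx : x ∈ B2 κ)
    (hY : ‖Y‖ < η) (hs : 1 / 2 * ‖Y‖ < -Y.im) (n : ℕ) (hn : n * ‖Y‖ ≤ 9 * κ) :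
    |((stp S₁ S₂)^[n] (x, Y)).1.re| < 20 * κ ∧ -(20 * κ) < ((stp S₁ S₂)^[n] (x, Y)).1.im ∧
      ((stp S₁ S₂)^[n] (x, Y)).1.im ≤ x.im - 12 / 25 * (n * ‖Y‖) := by
  have hκ := h.hκ
  have hn0 : (0 : ℝ) ≤ n := Nat.cast_nonneg n
  have hY0 := norm_nonneg Y
  obtain ⟨-, i2⟩ := orb_est H h (norm_B2 hκ hx) hY n (by linarith)
  set p := (stp S₁ S₂)^[n] (x, Y) with hp
  have e1 := (Complex.abs_re_le_norm (p.1 - (x + n * Y))).trans i2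
  have e2 := (Complex.abs_im_le_norm (p.1 - (x + n * Y))).trans i2
  have f1 : (p.1 - (x + n * Y)).re = p.1.re - (x.re + n * Y.re) := by simp
  have f2 : (p.1 - (x + n * Y)).im = p.1.im - (x.im + n * Y.im) := by simp
  rw [f1] at e1
  rw [f2] at e2
  have g1 := abs_le.1 e1
  have g2 := abs_le.1 e2
  have k1 : |Y.re| ≤ ‖Y‖ := Complex.abs_re_le_norm Y
  have k2 : |Y.im| ≤ ‖Y‖ := Complex.abs_im_le_norm Y
  have m1 : |(n : ℝ) * Y.re| ≤ n * ‖Y‖ := by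
    rw [abs_mul, abs_of_nonneg hn0]
    exact mul_le_mul_of_nonneg_left k1 hn0
  have m2 : |(n : ℝ) * Y.im| ≤ n * ‖Y‖ := by
    rw [abs_mul, abs_of_nonneg hn0]
    exact mul_le_mul_of_nonneg_left k2 hn0
  have m3 : (n : ℝ) * Y.im ≤ -(1 / 2 * (n * ‖Y‖)) := by
    have : (n : ℝ) * (1 / 2 * ‖Y‖) ≤ n * (-Y.im) := mul_le_mul_of_nonneg_left hs.le hn0
    linarith
  have q1 := abs_le.1 m1
  have q2 := abs_le.1 m2
  have r1 := abs_lt.1 hx.1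
  have r2 := hx.2.1
  refine ⟨?_, ?_, ?_⟩
  · rw [abs_lt]
    constructor <;> linarith [q1.1, q1.2, g1.1, g1.2, r1.1, r1.2]
  · linarith [q2.1, g2.1]
  · linarith [g2.2]

/-- the number of steps -/
noncomputable def NN (κ : ℝ) (Y : ℂ) : ℕ := ⌈8 * κ / ‖Y‖⌉₊

theorem NN_spec (hκ : 0 < κ) {Y : ℂ} (hY : 0 < ‖Y‖) :
    8 * κ ≤ NN κ Y * ‖Y‖ ∧ NN κ Y * ‖Y‖ < 8 * κ + ‖Y‖ := by
  have h1 : 8 * κ / ‖Y‖ ≤ NN κ Y := Nat.le_ceil _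
  have h2 : (NN κ Y : ℝ) < 8 * κ / ‖Y‖ + 1 := Nat.ceil_lt_add_one (by positivity)
  rw [div_le_iff₀ hY] at h1
  refine ⟨h1, ?_⟩
  calc NN κ Y * ‖Y‖ < (8 * κ / ‖Y‖ + 1) * ‖Y‖ := by gcongr
    _ = _ := by field_simp

/-- the continuation in the lower sector -/
noncomputable def vd (S₁ S₂ F : ℂ → ℂ → ℂ) (κ : ℝ) (x Y : ℂ) : ℂ :=
  F ((stp S₁ S₂)^[NN κ Y] (x, Y)).1 ((stp S₁ S₂)^[NN κ Y] (x, Y)).2

theorem vd_eq (H : StepMap S₁ S₂ r M) (h : Sml r M κ η) (hη₀ : 2 * η ≤ η₀)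
    (hF : Inv S₁ S₂ F σ κ η₀) {x Y : ℂ} (hx : x ∈ B2 κ) (hY : ‖Y‖ < η)
    (hs : 1 / 2 * ‖Y‖ < -Y.im) {n : ℕ} (h8 : 8 * κ ≤ n * ‖Y‖) (h9 : n * ‖Y‖ ≤ 9 * κ) :
    F ((stp S₁ S₂)^[n] (x, Y)).1 ((stp S₁ S₂)^[n] (x, Y)).2 = vd S₁ S₂ F κ x Y := by
  have hκ := h.hκ
  have hY0 : 0 < ‖Y‖ := by
    by_contra hc
    have : ‖Y‖ = 0 := le_antisymm (not_lt.1 hc) (norm_nonneg _)
    rw [this, mul_zero] at h8
    linarith
  have hN : NN κ Y ≤ n := by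
    apply Nat.ceil_le.2
    rw [div_le_iff₀ hY0]
    exact h8
  obtain ⟨k, rfl⟩ := Nat.exists_eq_add_of_le hN
  obtain ⟨n1, n2⟩ := NN_spec hκ hY0
  apply inv_iter hF
  intro j hj
  have hj' : ((NN κ Y + j : ℕ) : ℝ) * ‖Y‖ ≤ 9 * κ := by
    refine le_trans ?_ h9
    have : ((NN κ Y + j : ℕ) : ℝ) ≤ ((NN κ Y + k : ℕ) : ℝ) := by
      exact_mod_cast Nat.add_le_add_left hj.le _
    exact mul_le_mul_of_nonneg_right this hY0.le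
  have hj8 : 8 * κ ≤ ((NN κ Y + j : ℕ) : ℝ) * ‖Y‖ := by
    refine n1.trans ?_
    have : ((NN κ Y : ℕ) : ℝ) ≤ ((NN κ Y + j : ℕ) : ℝ) := by
      exact_mod_cast Nat.le_add_right _ _
    exact mul_le_mul_of_nonneg_right this hY0.le
  obtain ⟨o1, o2, o3⟩ := orb_pos H h hx hY hs _ hj'
  obtain ⟨p1, -, -⟩ := orb_est' H h (norm_B2 hκ hx) hY _ (hj'.trans (by linarith))
  refine ⟨⟨o1, o2, ?_⟩, p1.trans_le hη₀⟩
  have := hx.2.2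
  linarith

theorem vd_eq_F (H : StepMap S₁ S₂ r M) (h : Sml r M κ η) (hη₀ : 2 * η ≤ η₀) (hηκ : η ≤ κ / 4)
    (hF : Inv S₁ S₂ F σ κ η₀) {x Y : ℂ} (hx : x ∈ B1 κ) (hY : ‖Y‖ < η)
    (hs : 1 / 2 * ‖Y‖ < -Y.im) : vd S₁ S₂ F κ x Y = F x Y := by
  have hκ := h.hκ
  have hY0 : 0 < ‖Y‖ := by
    have : 0 < -Y.im := lt_of_le_of_lt (by positivity) hs
    refine norm_pos_iff.2 fun h0 => ?_
    rw [h0] at this
    simp at this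
  obtain ⟨n1, n2⟩ := NN_spec hκ hY0
  have key := inv_iter hF (x, Y) 0 (NN κ Y) (by
    intro j hj
    rw [zero_add]
    have hj' : (j : ℝ) * ‖Y‖ ≤ 9 * κ := by
      have : (j : ℝ) ≤ (NN κ Y : ℝ) := by exact_mod_cast hj.le
      have h2 : (j : ℝ) * ‖Y‖ ≤ NN κ Y * ‖Y‖ := mul_le_mul_of_nonneg_right this hY0.le
      linarith
    obtain ⟨o1, o2, o3⟩ := orb_pos H h (B1_sub_B2 hκ hx) hY hs _ hj'
    obtain ⟨p1, -, -⟩ := orb_est' H h (norm_B2 hκ (B1_sub_B2 hκ hx)) hY _ (hj'.trans (by linarith))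
    refine ⟨⟨o1, o2, ?_⟩, p1.trans_le hη₀⟩
    have h3 := hx.2.2
    have h4 : 0 ≤ (j : ℝ) * ‖Y‖ := by positivity
    linarith)
  rw [zero_add] at key
  exact key

theorem vd_diff (H : StepMap S₁ S₂ r M) (h : Sml r M κ η) (hη₀ : 2 * η ≤ η₀) (hηκ : η ≤ κ / 4)
    (hF : Inv S₁ S₂ F σ κ η₀) {x₀ Y₀ : ℂ} (hx : x₀ ∈ B2 κ) (hY : ‖Y₀‖ < η)
    (hs : 1 / 2 * ‖Y₀‖ < -Y₀.im) :
    DifferentiableAt ℂ (fun p : ℂ × ℂ => vd S₁ S₂ F κ p.1 p.2) (x₀, Y₀) := by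
  have hκ := h.hκ
  have hY0 : 0 < ‖Y₀‖ := by
    have : 0 < -Y₀.im := lt_of_le_of_lt (by positivity) hs
    refine norm_pos_iff.2 fun h0 => ?_
    rw [h0] at this
    simp at this
  obtain ⟨n1, n2⟩ := NN_spec hκ hY0
  set n := NN κ Y₀ + 1 with hn
  have a1 : 8 * κ < n * ‖Y₀‖ := by
    rw [hn]; push_cast; linarith
  have a2 : n * ‖Y₀‖ < 9 * κ := by
    rw [hn]; push_cast; linarith
  have hev : (fun p : ℂ × ℂ => F ((stp S₁ S₂)^[n] p).1 ((stp S₁ S₂)^[n] p).2) =ᶠ[𝓝 (x₀, Y₀)]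
      fun p : ℂ × ℂ => vd S₁ S₂ F κ p.1 p.2 := by
    have c1 : ∀ᶠ p : ℂ × ℂ in 𝓝 (x₀, Y₀), p.1 ∈ B2 κ :=
      ((isOpen_box (2 * κ) (-(5 * κ)) (2 * κ)).preimage continuous_fst).mem_nhds hx
    have c2 : ∀ᶠ p : ℂ × ℂ in 𝓝 (x₀, Y₀), ‖p.2‖ < η :=
      (isOpen_lt continuous_snd.norm continuous_const).mem_nhds hY
    have c3 : ∀ᶠ p : ℂ × ℂ in 𝓝 (x₀, Y₀), 1 / 2 * ‖p.2‖ < -p.2.im :=
      (isOpen_lt (continuous_const.mul continuous_snd.norm)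
        (Complex.continuous_im.comp continuous_snd).neg).mem_nhds hs
    have c4 : ∀ᶠ p : ℂ × ℂ in 𝓝 (x₀, Y₀), 8 * κ < n * ‖p.2‖ :=
      (isOpen_lt continuous_const (continuous_const.mul continuous_snd.norm)).mem_nhds a1
    have c5 : ∀ᶠ p : ℂ × ℂ in 𝓝 (x₀, Y₀), n * ‖p.2‖ < 9 * κ :=
      (isOpen_lt (continuous_const.mul continuous_snd.norm) continuous_const).mem_nhds a2
    filter_upwards [c1, c2, c3, c4, c5] with p d1 d2 d3 d4 d5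
    exact vd_eq H h hη₀ hF d1 d2 d3 d4.le d5.le
  refine DifferentiableAt.congr_of_eventuallyEq ?_ hev.symm
  have d1 := iter_diff H h (norm_B2 hκ hx) hY n (by linarith)
  obtain ⟨o1, o2, o3⟩ := orb_pos H h hx hY hs n a2.le
  obtain ⟨p1, -, -⟩ := orb_est' H h (norm_B2 hκ hx) hY n (by linarith)
  have d2 := hF.diff ((stp S₁ S₂)^[n] (x₀, Y₀)).1
    ⟨o1, o2, by have := hx.2.2; linarith⟩ ((stp S₁ S₂)^[n] (x₀, Y₀)).2 (p1.trans_le hη₀)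
  exact DifferentiableAt.comp (x₀, Y₀) (f := (stp S₁ S₂)^[n]) d2 d1

end Vale.Agent.P097.H367.PropD
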