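import Vale.Agent.P097.H367.PropB

/-! # P097 / NZ-D, part 3: the theorem `prop_ext` -/

set_option linter.all false

open scoped ComplexConjugate Topology
open Filter Metric Set Complex

namespace Vale.Agent.P097.H367.PropD

open Vale.Agent.P097.TA Vale.Agent.P097.H543

/-- the closed lower box -/
def KC (κ : ℝ) : Set ℂ := {x | |x.re| ≤ 20 * κ ∧ -(20 * κ) ≤ x.im ∧ x.im ≤ -(κ / 8)}

theorem isCompact_KC (κ : ℝ) : IsCompact (KC κ) := by
  have hc : IsClosed (KC κ) := by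
    have h1 : IsClosed {x : ℂ | |x.re| ≤ 20 * κ} :=
      isClosed_le (continuous_abs.comp Complex.continuous_re) continuous_const
    have h2 : IsClosed {x : ℂ | -(20 * κ) ≤ x.im} :=
      isClosed_le continuous_const Complex.continuous_im
    have h3 : IsClosed {x : ℂ | x.im ≤ -(κ / 8)} :=
      isClosed_le Complex.continuous_im continuous_const
    exact h1.inter (h2.inter h3)
  refine Metric.isCompact_of_isClosed_isBounded hc ?_
  refine (isBounded_iff_forall_norm_le (E := ℂ)).2 ⟨40 * |κ|, fun x hx => ?_⟩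
  have h1 := Complex.norm_le_abs_re_add_abs_im x
  have h2 : |x.im| ≤ 20 * |κ| := by
    rw [abs_le]
    have := le_abs_self κ
    have := neg_abs_le κ
    constructor <;> linarith [hx.2.1, hx.2.2]
  have h3 : |x.re| ≤ 20 * |κ| := hx.1.trans (by linarith [le_abs_self κ])
  linarith

theorem mem_disc {ρ₀ : ℝ} (hρ₀ : 0 < ρ₀) {x : ℂ} :
    x ∈ ball (-(ρ₀ : ℂ) * I) ρ₀ ↔ x.re ^ 2 + x.im ^ 2 + 2 * ρ₀ * x.im < 0 := by
  rw [mem_ball, dist_eq_norm]
  have h1 : ‖x - -(ρ₀ : ℂ) * I‖ ^ 2 = x.re ^ 2 + (x.im + ρ₀) ^ 2 := by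
    rw [Complex.sq_norm, Complex.normSq_apply]
    simp
    ring
  have h2 : ‖x - -(ρ₀ : ℂ) * I‖ < ρ₀ ↔ ‖x - -(ρ₀ : ℂ) * I‖ ^ 2 < ρ₀ ^ 2 := by
    constructor
    · intro h; exact pow_lt_pow_left₀ h (norm_nonneg _) two_ne_zero
    · intro h; exact lt_of_pow_lt_pow_left₀ 2 hρ₀.le h
  rw [h2, h1]
  constructor <;> intro h <;> nlinarith

variable {S₁ S₂ F : ℂ → ℂ → ℂ} {r M : ℝ} {σ : ℂ}

/-- the data of the germ at a point -/
def Grm (S₁ S₂ F : ℂ → ℂ → ℂ) (σ : ℂ) (x : ℂ) : Prop :=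
  ∃ ε > 0, JD F (ball x ε ×ˢ ball 0 ε) ∧ ∀ x' Y : ℂ, ‖x' - x‖ < ε → ‖Y‖ < ε →
    F (S₁ x' Y) (S₂ x' Y) = F x' Y ∧ F x' (-Y) = σ * F x' Y

theorem prop_std (H : StepMap S₁ S₂ r M) {ρ₀ : ℝ} (hρ₀ : 0 < ρ₀)
    (hF : ∀ x ∈ ball (-(ρ₀ : ℂ) * I) ρ₀, Grm S₁ S₂ F σ x) :
    ∃ δ > 0, ∃ F' : ℂ → ℂ → ℂ, JD F' (ball 0 δ ×ˢ ball 0 δ) ∧
      ∀ x ∈ ball (-(ρ₀ : ℂ) * I) ρ₀, ‖x‖ < δ →
        ∀ᶠ p : ℂ × ℂ in 𝓝 (x, 0), F' p.1 p.2 = F p.1 p.2 := by
  have hr := H.hr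
  have hM := H.hM
  set κ : ℝ := min (r / 40) (min (1 / (4000 * (M + 1))) (ρ₀ / 20000)) with hκdef
  have hκ : 0 < κ := lt_min (by positivity) (lt_min (by positivity) (by positivity))
  have hκ1 : κ ≤ r / 40 := min_le_left _ _
  have hκ2 : κ ≤ 1 / (4000 * (M + 1)) := (min_le_right _ _).trans (min_le_left _ _)
  have hκ3 : κ ≤ ρ₀ / 20000 := (min_le_right _ _).trans (min_le_right _ _)
  have hKd : KC κ ⊆ ball (-(ρ₀ : ℂ) * I) ρ₀ := by
    intro x hx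
    rw [mem_disc hρ₀]
    obtain ⟨h1, h2, h3⟩ := hx
    have h4 : x.re ^ 2 ≤ (20 * κ) ^ 2 := by
      rw [← sq_abs]
      exact pow_le_pow_left₀ (abs_nonneg _) h1 2
    have h5 : x.im ^ 2 ≤ (20 * κ) ^ 2 := by
      rw [← sq_abs]
      refine pow_le_pow_left₀ (abs_nonneg _) (abs_le.2 ⟨by linarith, by linarith⟩) 2
    have h6 : 2 * ρ₀ * x.im ≤ 2 * ρ₀ * (-(κ / 8)) := mul_le_mul_of_nonneg_left h3 (by positivity)
    have h7 : 20000 * κ * κ ≤ ρ₀ * κ := by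
      have : 20000 * κ ≤ ρ₀ := by linarith
      exact mul_le_mul_of_nonneg_right this hκ.le
    nlinarith
  obtain ⟨η₀, hη₀, hgood⟩ : ∃ η₀ > 0, ∀ x ∈ KC κ, ∀ Y : ℂ, ‖Y‖ < η₀ →
      DifferentiableAt ℂ (fun p : ℂ × ℂ => F p.1 p.2) (x, Y) ∧
        F (S₁ x Y) (S₂ x Y) = F x Y ∧ F x (-Y) = σ * F x Y := by
    refine (isCompact_KC κ).induction_on (p := fun S => ∃ η₀ > 0, ∀ x ∈ S, ∀ Y : ℂ, ‖Y‖ < η₀ →
      DifferentiableAt ℂ (fun p : ℂ × ℂ => F p.1 p.2) (x, Y) ∧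
        F (S₁ x Y) (S₂ x Y) = F x Y ∧ F x (-Y) = σ * F x Y) ⟨1, one_pos, by simp⟩ ?_ ?_ ?_
    · rintro s t hst ⟨η₀, h1, h2⟩
      exact ⟨η₀, h1, fun x hx => h2 x (hst hx)⟩
    · rintro s t ⟨η₁, h1, h2⟩ ⟨η₂, h3, h4⟩
      refine ⟨min η₁ η₂, lt_min h1 h3, ?_⟩
      rintro x (hx | hx) Y hY
      · exact h2 x hx Y (hY.trans_le (min_le_left _ _))
      · exact h4 x hx Y (hY.trans_le (min_le_right _ _))
    · intro x hx
      obtain ⟨ε, hε, h1, h2⟩ := hF x (hKd hx)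
      refine ⟨ball x ε, mem_nhdsWithin_of_mem_nhds (ball_mem_nhds x hε), ε, hε, ?_⟩
      intro x' hx' Y hY
      refine ⟨JD_at h1 (isOpen_ball.prod isOpen_ball) ⟨hx', by simpa using hY⟩, ?_⟩
      exact h2 x' Y (by rwa [mem_ball, dist_eq_norm] at hx') hY
  set η : ℝ := min (η₀ / 2) (min (κ / 4) (min (r / 2) (1 / (400 * (M + 1))))) with hηdef
  have hη : 0 < η := lt_min (by positivity) (lt_min (by positivity) (lt_min (by positivity)
    (by positivity)))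
  have hη1 : η ≤ η₀ / 2 := min_le_left _ _
  have hη2 : η ≤ κ / 4 := (min_le_right _ _).trans (min_le_left _ _)
  have hη3 : η ≤ r / 2 := (min_le_right _ _).trans ((min_le_right _ _).trans (min_le_left _ _))
  have hη4 : η ≤ 1 / (400 * (M + 1)) :=
    (min_le_right _ _).trans ((min_le_right _ _).trans (min_le_right _ _))
  have hsml : Sml r M κ η := by
    refine ⟨hκ, hη, by linarith, ?_, by linarith, ?_⟩
    · rw [le_div_iff₀ (by positivity)] at hκ2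
      nlinarith
    · rw [le_div_iff₀ (by positivity)] at hη4
      nlinarith
  have hKB : ∀ x ∈ KB κ, x ∈ KC κ := fun x hx => ⟨hx.1.le, hx.2.1.le, hx.2.2.le⟩
  have hInv : Inv S₁ S₂ F σ κ η₀ :=
    ⟨fun x hx Y hY => (hgood x (hKB x hx) Y hY).1, fun x hx Y hY => (hgood x (hKB x hx) Y hY).2.1,
      fun x hx Y hY => (hgood x (hKB x hx) Y hY).2.2⟩
  obtain ⟨δ, hδ, hδκ, F', hF'J, hF'F⟩ := extend_std H hsml (by linarith) hη2 hInv
  refine ⟨δ, hδ, F', ?_, ?_⟩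
  · refine JD_mono hF'J (prod_mono ?_ Subset.rfl)
    intro x hx
    rw [mem_ball, dist_zero_right] at hx
    have h1 := (Complex.abs_re_le_norm x).trans_lt hx
    have h2 := abs_lt.1 ((Complex.abs_im_le_norm x).trans_lt hx)
    exact ⟨h1, by linarith [h2.1], h2.2⟩
  · set BB : Set ℂ := {x | |x.re| < δ ∧ -(κ / 2) < x.im ∧ x.im < δ} with hBB
    have hconv : Convex ℝ (BB ∩ ball (-(ρ₀ : ℂ) * I) ρ₀) :=
      (convex_box δ (-(κ / 2)) δ).inter (convex_ball _ _)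
    have hBBo : IsOpen BB := isOpen_box δ (-(κ / 2)) δ
    have hx₀ : -(κ / 4 : ℝ) * I ∈ BB ∩ ball (-(ρ₀ : ℂ) * I) ρ₀ := by
      refine ⟨⟨?_, ?_, ?_⟩, ?_⟩
      · simpa using hδ
      · simp; linarith
      · simp; linarith
      · rw [mem_disc hρ₀]
        have h1 : (-((κ / 4 : ℝ) : ℂ) * I).re = 0 := by simp
        have h2 : (-((κ / 4 : ℝ) : ℂ) * I).im = -(κ / 4) := by simp
        rw [h1, h2]
        have h7 : 20000 * κ * κ ≤ ρ₀ * κ := by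
          have : 20000 * κ ≤ ρ₀ := by linarith
          exact mul_le_mul_of_nonneg_right this hκ.le
        nlinarith
    have key := germ_eq (f := F') (g := F) hconv.isPreconnected
      (by
        rintro x ⟨hx, -⟩
        obtain ⟨ε, hε, hsub⟩ := Metric.isOpen_iff.1 hBBo x hx
        refine ⟨min ε δ, lt_min hε hδ, JD_mono hF'J (prod_mono ?_ ?_)⟩
        · exact (ball_subset_ball (min_le_left _ _)).trans hsub
        · exact ball_subset_ball (min_le_right _ _))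
      (by
        rintro x ⟨-, hx⟩
        obtain ⟨ε, hε, h1, -⟩ := hF x hx
        exact ⟨ε, hε, h1⟩) hx₀
      (by
        have c1 : ∀ᶠ p : ℂ × ℂ in 𝓝 (-(κ / 4 : ℝ) * I, (0 : ℂ)), p.1 ∈
            {x : ℂ | |x.re| < δ ∧ -(κ / 2) < x.im ∧ x.im < -(κ / 8)} := by
          refine ((isOpen_box δ (-(κ / 2)) (-(κ / 8))).preimage continuous_fst).mem_nhds ?_
          refine ⟨?_, ?_, ?_⟩
          · simpa using hδ
          · simp; linarith
          · simp; linarith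
        have c2 : ∀ᶠ p : ℂ × ℂ in 𝓝 (-(κ / 4 : ℝ) * I, (0 : ℂ)), ‖p.2‖ < δ := by
          refine (isOpen_lt continuous_snd.norm continuous_const).mem_nhds ?_
          simpa using hδ
        filter_upwards [c1, c2] with p h1 h2
        exact hF'F p.1 h1.1 h1.2.1 h1.2.2 p.2 h2)
    intro x hx hxδ
    have h1 := (Complex.abs_re_le_norm x).trans_lt hxδ
    have h2 := abs_lt.1 ((Complex.abs_im_le_norm x).trans_lt hxδ)
    exact key x ⟨⟨h1, by linarith [h2.1], h2.2⟩, hx⟩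

/-- **NZ-D (PROP).**  Let `S = (S₁, S₂)` be a holomorphic map with
`S(x, Y) = (x + Y + O(Y²), Y + O(Y²))` near the origin and `F` the germ along
`ball c ‖c‖ × {0}` (a disc through `0`) of a holomorphic function with `F ∘ S = F` and
`F(x, -Y) = σ F(x, Y)`.  Then `F` has a holomorphic extension to a neighbourhood of the
origin. -/
theorem prop_ext {c : ℂ} (hr : 0 < r) (hc : c ≠ 0)
    (hS₁ : JD S₁ (ball 0 r ×ˢ ball 0 r)) (hS₂ : JD S₂ (ball 0 r ×ˢ ball 0 r))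
    (hS : ∀ x Y : ℂ, ‖x‖ < r → ‖Y‖ < r →
      ‖S₁ x Y - (x + Y)‖ ≤ M * ‖Y‖ ^ 2 ∧ ‖S₂ x Y - Y‖ ≤ M * ‖Y‖ ^ 2)
    (hF : ∀ x ∈ ball c ‖c‖, Grm S₁ S₂ F σ x) :
    ∃ δ > 0, ∃ F' : ℂ → ℂ → ℂ, JD F' (ball 0 δ ×ˢ ball 0 δ) ∧
      ∀ x ∈ ball c ‖c‖, ‖x‖ < δ → ∀ᶠ p : ℂ × ℂ in 𝓝 (x, 0), F' p.1 p.2 = F p.1 p.2 := by
  have hcn : 0 < ‖c‖ := norm_pos_iff.2 hc
  have hcn' : (‖c‖ : ℂ) ≠ 0 := by exact_mod_cast hcn.ne'
  set u : ℂ := c / (-(‖c‖ : ℂ) * I) with hu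
  have hden : (-(‖c‖ : ℂ) * I) ≠ 0 := mul_ne_zero (neg_ne_zero.2 hcn') I_ne_zero
  have huc : u * (-(‖c‖ : ℂ) * I) = c := by rw [hu]; field_simp
  have hun : ‖u‖ = 1 := by
    rw [hu, norm_div, norm_mul, norm_neg, Complex.norm_I, mul_one, Complex.norm_real, norm_norm,
      div_self hcn.ne']
  have hu0 : u ≠ 0 := by
    intro h; rw [h, norm_zero] at hun; exact zero_ne_one hun
  have hui : ‖u⁻¹‖ = 1 := by rw [norm_inv, hun, inv_one]
  have hnu : ∀ z : ℂ, ‖u * z‖ = ‖z‖ := fun z => by rw [norm_mul, hun, one_mul]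
  have hnui : ∀ z : ℂ, ‖u⁻¹ * z‖ = ‖z‖ := fun z => by rw [norm_mul, hui, one_mul]
  have rot : ∀ {f : ℂ → ℂ → ℂ} {A : Set (ℂ × ℂ)} (v : ℂ), JD f A →
      JD (fun x Y => f (v * x) (v * Y)) {p | (v * p.1, v * p.2) ∈ A} := by
    intro f A v hf
    have h1 : Differentiable ℂ (fun p : ℂ × ℂ => (v * p.1, v * p.2)) :=
      (differentiable_fst.const_mul v).prodMk (differentiable_snd.const_mul v)
    exact DifferentiableOn.comp (g := fun p : ℂ × ℂ => f p.1 p.2) hf h1.differentiableOn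
      fun p hp => hp
  have rotsub : ∀ ε : ℝ, ball (0 : ℂ) ε ×ˢ ball (0 : ℂ) ε ⊆
      {p : ℂ × ℂ | (u * p.1, u * p.2) ∈ ball (0 : ℂ) ε ×ˢ ball (0 : ℂ) ε} := by
    rintro ε ⟨x, Y⟩ ⟨h1, h2⟩
    simp only [mem_ball, dist_zero_right] at h1 h2
    refine ⟨?_, ?_⟩
    · simpa only [mem_ball, dist_zero_right, hnu] using h1
    · simpa only [mem_ball, dist_zero_right, hnu] using h2
  have Hs : StepMap (fun x Y => u⁻¹ * S₁ (u * x) (u * Y)) (fun x Y => u⁻¹ * S₂ (u * x) (u * Y))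
      r |M| := by
    refine ⟨hr, abs_nonneg _, ?_, ?_, ?_, ?_⟩
    · exact (JD_mono (rot u hS₁) (rotsub r)).const_mul _
    · exact (JD_mono (rot u hS₂) (rotsub r)).const_mul _
    · intro x Y hx hY
      have h1 := (hS (u * x) (u * Y) (by rwa [hnu]) (by rwa [hnu])).1
      have e : u⁻¹ * S₁ (u * x) (u * Y) - (x + Y) =
          u⁻¹ * (S₁ (u * x) (u * Y) - (u * x + u * Y)) := by
        field_simp
      rw [e, hnui]
      refine h1.trans ?_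
      rw [hnu]
      exact mul_le_mul_of_nonneg_right (le_abs_self _) (by positivity)
    · intro x Y hx hY
      have h1 := (hS (u * x) (u * Y) (by rwa [hnu]) (by rwa [hnu])).2
      have e : u⁻¹ * S₂ (u * x) (u * Y) - Y = u⁻¹ * (S₂ (u * x) (u * Y) - u * Y) := by
        field_simp
      rw [e, hnui]
      refine h1.trans ?_
      rw [hnu]
      exact mul_le_mul_of_nonneg_right (le_abs_self _) (by positivity)
  have hmem : ∀ x : ℂ, x ∈ ball (-(‖c‖ : ℂ) * I) ‖c‖ ↔ u * x ∈ ball c ‖c‖ := by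
    intro x
    rw [mem_ball, mem_ball, dist_eq_norm, dist_eq_norm]
    have e : u * x - c = u * (x - -(‖c‖ : ℂ) * I) := by
      rw [mul_sub, huc]
    rw [e, hnu]
  have hFs : ∀ x ∈ ball (-(‖c‖ : ℂ) * I) ‖c‖,
      Grm (fun x Y => u⁻¹ * S₁ (u * x) (u * Y)) (fun x Y => u⁻¹ * S₂ (u * x) (u * Y))
        (fun x Y => F (u * x) (u * Y)) σ x := by
    intro x hx
    obtain ⟨ε, hε, h1, h2⟩ := hF (u * x) ((hmem x).1 hx)
    refine ⟨ε, hε, ?_, ?_⟩
    · refine JD_mono (rot u h1) ?_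
      rintro ⟨x', Y⟩ ⟨h3, h4⟩
      simp only [mem_ball, dist_zero_right] at h3 h4
      refine ⟨?_, ?_⟩
      · simp only [mem_ball]
        rw [dist_eq_norm, ← mul_sub, hnu, ← dist_eq_norm]
        exact h3
      · simpa only [mem_ball, dist_zero_right, hnu] using h4
    · intro x' Y h3 h4
      have h5 := h2 (u * x') (u * Y) (by rwa [← mul_sub, hnu]) (by rwa [hnu])
      simp only
      rw [mul_inv_cancel_left₀ hu0, mul_inv_cancel_left₀ hu0, mul_neg]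
      exact h5
  obtain ⟨δ, hδ, F', hJ, hE⟩ := prop_std Hs hcn hFs
  refine ⟨δ, hδ, fun x Y => F' (u⁻¹ * x) (u⁻¹ * Y), ?_, ?_⟩
  · refine JD_mono (rot u⁻¹ hJ) ?_
    rintro ⟨x, Y⟩ ⟨h1, h2⟩
    simp only [mem_ball, dist_zero_right] at h1 h2
    refine ⟨?_, ?_⟩
    · simpa only [mem_ball, dist_zero_right, hnui] using h1
    · simpa only [mem_ball, dist_zero_right, hnui] using h2
  · intro x hx hxδ
    have h1 := hE (u⁻¹ * x) ((hmem _).2 (by rwa [mul_inv_cancel_left₀ hu0])) (by rwa [hnui])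
    have hcont : Filter.Tendsto (fun p : ℂ × ℂ => (u⁻¹ * p.1, u⁻¹ * p.2)) (𝓝 (x, 0))
        (𝓝 (u⁻¹ * x, 0)) := by
      have h2 : Continuous (fun p : ℂ × ℂ => (u⁻¹ * p.1, u⁻¹ * p.2)) := by fun_prop
      have h3 := h2.tendsto (x, 0)
      simpa using h3
    filter_upwards [hcont.eventually h1] with p hp
    simp only [mul_inv_cancel_left₀ hu0] at hp
    exact hp

end Vale.Agent.P097.H367.PropD
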