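import Vale.Agent.P097.H128.NZ.Chord
import Vale.Agent.P097.H367.PropC

/-! # P097 / NZ-D2: goodness propagates, touching disc form -/

set_option linter.all false

open scoped ComplexConjugate Topology
open Filter Metric Set Complex

namespace Vale.Agent.P097.H367.PropD

open Vale.Agent.P097.TA Vale.Agent.P097.H543 Vale.Agent.P097.NZ

/-- the germ of the series along the good set -/
theorem Sm_good {u : ℕ → ℂ → ℂ} {S : ℂ × ℂ → ℂ × ℂ} {z : ℂ} (h : Good u S z) :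
    ∃ ε > 0, ∀ z' ∈ ball z ε, ∀ δ ∈ ball (0 : ℂ) ε,
      DifferentiableAt ℂ (Sm u) (z', δ) ∧ Sm u (S (z', δ)) = Sm u (z', δ) ∧
        Sm u (z', -δ) = -Sm u (z', δ) := by
  have h1 := (analyticAt_Sm h.hol h.bd).eventually_analyticAt
  obtain ⟨r₁, hr₁, h2⟩ := exists_polydisc (h1.and h.inv)
  obtain ⟨r₂, hr₂, h3⟩ := Metric.eventually_nhds_iff_ball.1 h.odd
  refine ⟨min r₁ r₂, lt_min hr₁ hr₂, fun z' hz' δ hδ => ?_⟩
  obtain ⟨a1, a2⟩ := h2 z' (ball_subset_ball (min_le_left _ _) hz') δ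
    (ball_subset_ball (min_le_left _ _) hδ)
  refine ⟨a1.differentiableAt, a2, ?_⟩
  have h4 := h3 z' (ball_subset_ball (min_le_right _ _) hz')
  unfold Sm
  rw [← tsum_neg]
  apply tsum_congr
  intro k
  rcases Nat.even_or_odd k with hk | hk
  · simp only [h4 k hk, zero_mul, neg_zero]
  · simp only [hk.neg_pow, mul_neg]

/-- a point of the touching disc close to the point of contact -/
theorem exists_near {z₀ c : ℂ} (hc : c ≠ z₀) {s : ℝ} (hs : 0 < s) :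
    ∃ z₁ ∈ ball c (dist c z₀), z₁ ∈ ball z₀ s := by
  have hd : 0 < dist c z₀ := dist_pos.2 hc
  set t : ℝ := min (1 / 2) (s / (2 * dist c z₀)) with ht
  have ht0 : 0 < t := lt_min (by norm_num) (by positivity)
  have ht1 : t ≤ 1 / 2 := min_le_left _ _
  have ht2 : t ≤ s / (2 * dist c z₀) := min_le_right _ _
  refine ⟨z₀ + t * (c - z₀), ?_, ?_⟩
  · rw [mem_ball, dist_eq_norm]
    have e : z₀ + t * (c - z₀) - c = ((t - 1 : ℝ) : ℂ) * (c - z₀) := by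
      push_cast; ring
    rw [e, norm_mul, Complex.norm_real, Real.norm_eq_abs, abs_of_neg (by linarith),
      ← dist_eq_norm]
    nlinarith
  · rw [mem_ball, dist_eq_norm, add_sub_cancel_left, norm_mul, Complex.norm_real,
      Real.norm_eq_abs, abs_of_pos ht0, ← dist_eq_norm]
    rw [le_div_iff₀ (by positivity)] at ht2
    nlinarith

/-- identity theorem on a ball -/
theorem ball_eq {f g : ℂ → ℂ} {z₀ z₁ : ℂ} {s : ℝ} (hf : ∀ z ∈ ball z₀ s, AnalyticAt ℂ f z)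
    (hg : ∀ z ∈ ball z₀ s, AnalyticAt ℂ g z) (hz₁ : z₁ ∈ ball z₀ s) (h : f =ᶠ[𝓝 z₁] g) :
    ∀ z ∈ ball z₀ s, f z = g z := by
  have hf' : AnalyticOnNhd ℂ f (ball z₀ s) := fun z hz => hf z hz
  have hg' : AnalyticOnNhd ℂ g (ball z₀ s) := fun z hz => hg z hz
  exact fun z hz => hf'.eqOn_of_preconnected_of_eventuallyEq hg'
    (convex_ball z₀ s).isPreconnected hz₁ h hz

/-- a function analytic at a point of the axis is `JD` on a small polydisc -/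
theorem JD_of_analyticAt {f : ℂ × ℂ → ℂ} {z : ℂ} (hf : AnalyticAt ℂ f (z, 0)) :
    ∃ ε > 0, JD (fun x y => f (x, y)) (ball z ε ×ˢ ball 0 ε) := by
  obtain ⟨ε, hε, h⟩ := exists_polydisc hf.eventually_analyticAt
  refine ⟨ε, hε, ?_⟩
  rintro ⟨x, y⟩ ⟨hx, hy⟩
  exact (h x hx y hy).differentiableAt.differentiableWithinAt

/-- **NZ-D2.** -/
theorem propT (A : RootA) : PropT := by
  intro ρ z₀ c hρ h0 hc hgood
  have hd : 0 < dist c z₀ := dist_pos.2 hc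
  obtain ⟨M, r₁, hM, hr₁, hbd⟩ := TT_bd A hρ h0
  obtain ⟨r₂, hr₂, hTA⟩ := exists_polydisc (TT_an A hρ h0).eventually_analyticAt
  set r : ℝ := min r₁ r₂ with hr
  have hr0 : 0 < r := lt_min hr₁ hr₂
  set S₁ : ℂ → ℂ → ℂ := fun x Y => (TT ρ (z₀ + x, Y / 2)).1 - z₀ with hS₁
  set S₂ : ℂ → ℂ → ℂ := fun x Y => 2 * (TT ρ (z₀ + x, Y / 2)).2 with hS₂
  set F : ℂ → ℂ → ℂ := fun x Y => Sm (Ik ρ) (z₀ + x, Y / 2) with hF
  have hmem : ∀ x Y : ℂ, ‖x‖ < r → ‖Y‖ < r → z₀ + x ∈ ball z₀ r ∧ Y / 2 ∈ ball (0 : ℂ) r := by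
    intro x Y hx hY
    refine ⟨by rwa [mem_ball, dist_eq_norm, add_sub_cancel_left], ?_⟩
    rw [mem_ball, dist_zero_right, norm_div, Complex.norm_ofNat]
    linarith [norm_nonneg Y]
  have hTd : ∀ x Y : ℂ, ‖x‖ < r → ‖Y‖ < r →
      DifferentiableAt ℂ (fun p : ℂ × ℂ => TT ρ (z₀ + p.1, p.2 / 2)) (x, Y) := by
    intro x Y hx hY
    obtain ⟨m1, m2⟩ := hmem x Y hx hY
    have h1 := (hTA (z₀ + x) (ball_subset_ball (min_le_right _ _) m1) (Y / 2)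
      (ball_subset_ball (min_le_right _ _) m2)).differentiableAt
    have h2 : DifferentiableAt ℂ (fun p : ℂ × ℂ => (z₀ + p.1, p.2 / 2)) (x, Y) := by fun_prop
    exact DifferentiableAt.comp (x, Y) (f := fun p : ℂ × ℂ => (z₀ + p.1, p.2 / 2)) h1 h2
  have hJ₁ : JD S₁ (ball 0 r ×ˢ ball 0 r) := by
    rintro ⟨x, Y⟩ ⟨hx, hY⟩
    simp only [mem_ball, dist_zero_right] at hx hY
    exact ((hTd x Y hx hY).fst.sub_const z₀).differentiableWithinAt
  have hJ₂ : JD S₂ (ball 0 r ×ˢ ball 0 r) := by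
    rintro ⟨x, Y⟩ ⟨hx, hY⟩
    simp only [mem_ball, dist_zero_right] at hx hY
    exact ((hTd x Y hx hY).snd.const_mul 2).differentiableWithinAt
  have hSb : ∀ x Y : ℂ, ‖x‖ < r → ‖Y‖ < r →
      ‖S₁ x Y - (x + Y)‖ ≤ M * ‖Y‖ ^ 2 ∧ ‖S₂ x Y - Y‖ ≤ M * ‖Y‖ ^ 2 := by
    intro x Y hx hY
    obtain ⟨m1, m2⟩ := hmem x Y hx hY
    obtain ⟨b1, b2⟩ := hbd (z₀ + x) (ball_subset_ball (min_le_left _ _) m1) (Y / 2)
      (ball_subset_ball (min_le_left _ _) m2)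
    have e0 : ‖Y / 2‖ = ‖Y‖ / 2 := by rw [norm_div, Complex.norm_ofNat]
    rw [e0] at b1 b2
    have hY2 : 0 ≤ M * ‖Y‖ ^ 2 := by positivity
    constructor
    · have e : S₁ x Y - (x + Y) = (TT ρ (z₀ + x, Y / 2)).1 - (z₀ + x + 2 * (Y / 2)) := by
        simp only [hS₁]; ring
      rw [e]
      refine b1.trans ?_
      nlinarith
    · have e : S₂ x Y - Y = 2 * ((TT ρ (z₀ + x, Y / 2)).2 - Y / 2) := by
        simp only [hS₂]; ring
      rw [e, norm_mul, Complex.norm_ofNat]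
      nlinarith
  have hc' : c - z₀ ≠ 0 := sub_ne_zero.2 hc
  have hcn : ‖c - z₀‖ = dist c z₀ := (dist_eq_norm _ _).symm
  have hG : ∀ x ∈ ball (c - z₀) ‖c - z₀‖, Grm S₁ S₂ F (-1) x := by
    intro x hx
    have hz : z₀ + x ∈ ball c (dist c z₀) := by
      rw [mem_ball, dist_eq_norm] at hx ⊢
      rw [← hcn]
      convert hx using 2
      ring
    obtain ⟨ε, hε, h1⟩ := Sm_good (hgood _ hz)
    have hm : ∀ x' Y : ℂ, ‖x' - x‖ < ε → ‖Y‖ < ε →
        z₀ + x' ∈ ball (z₀ + x) ε ∧ Y / 2 ∈ ball (0 : ℂ) ε := by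
      intro x' Y h2 h3
      refine ⟨by rwa [mem_ball, dist_eq_norm, add_sub_add_left_eq_sub], ?_⟩
      rw [mem_ball, dist_zero_right, norm_div, Complex.norm_ofNat]
      linarith [norm_nonneg Y]
    refine ⟨ε, hε, ?_, ?_⟩
    · rintro ⟨x', Y⟩ ⟨h2, h3⟩
      simp only [mem_ball, dist_zero_right] at h2 h3
      rw [dist_eq_norm] at h2
      obtain ⟨m1, m2⟩ := hm x' Y h2 h3
      have h4 := (h1 _ m1 _ m2).1
      have h5 : DifferentiableAt ℂ (fun p : ℂ × ℂ => (z₀ + p.1, p.2 / 2)) (x', Y) := by fun_prop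
      exact (DifferentiableAt.comp (x', Y) (f := fun p : ℂ × ℂ => (z₀ + p.1, p.2 / 2)) h4
        h5).differentiableWithinAt
    · intro x' Y h2 h3
      obtain ⟨m1, m2⟩ := hm x' Y h2 h3
      obtain ⟨-, h5, h6⟩ := h1 _ m1 _ m2
      constructor
      · simp only [hF, hS₁, hS₂]
        have e : (z₀ + ((TT ρ (z₀ + x', Y / 2)).1 - z₀), 2 * (TT ρ (z₀ + x', Y / 2)).2 / 2) =
            TT ρ (z₀ + x', Y / 2) := by
          apply Prod.ext
          · simp only; ring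
          · simp only; ring
        rw [e]
        exact h5
      · simp only [hF]
        rw [neg_div, h6]
        ring
  obtain ⟨δ₀, hδ₀, F', hF'J, hF'F⟩ := prop_ext hr0 hc' hJ₁ hJ₂ hSb hG
  set Φ : ℂ × ℂ → ℂ := fun p => F' (p.1 - z₀) (2 * p.2) with hΦ
  have hΦd : ∀ z ∈ ball z₀ δ₀, AnalyticAt ℂ Φ (z, 0) := by
    intro z hz
    have ho : IsOpen (ball (0 : ℂ) δ₀ ×ˢ ball (0 : ℂ) δ₀) := isOpen_ball.prod isOpen_ball
    have h1 : (z - z₀, (2 : ℂ) * 0) ∈ ball (0 : ℂ) δ₀ ×ˢ ball (0 : ℂ) δ₀ := by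
      refine ⟨?_, ?_⟩
      · rw [mem_ball, dist_zero_right, ← dist_eq_norm]; exact hz
      · rw [mul_zero]; exact mem_ball_self hδ₀
    have h2 : AnalyticAt ℂ (fun p : ℂ × ℂ => F' p.1 p.2) (z - z₀, (2 : ℂ) * 0) :=
      Vale.Agent.P268.analyticAt_of_differentiableOn ho hF'J h1
    have h3 : AnalyticAt ℂ (fun p : ℂ × ℂ => (p.1 - z₀, 2 * p.2)) (z, 0) :=
      (analyticAt_fst.sub analyticAt_const).prod (analyticAt_const.mul analyticAt_snd)
    exact h2.comp_of_eq h3 rfl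
  have hz₀δ : z₀ ∈ ball z₀ δ₀ := mem_ball_self hδ₀
  -- on the touching disc `Φ` is the series
  have hΦS : ∀ z ∈ ball c (dist c z₀), z ∈ ball z₀ δ₀ →
      ∀ᶠ p in 𝓝 ((z, 0) : ℂ × ℂ), Φ p = Sm (Ik ρ) p := by
    intro z hz hzδ
    have h1 := hF'F (z - z₀) (by
      rw [mem_ball, dist_eq_norm] at hz ⊢
      rw [hcn]
      convert hz using 2
      ring) (by rwa [mem_ball, dist_eq_norm] at hzδ)
    have h2 : Tendsto (fun p : ℂ × ℂ => (p.1 - z₀, 2 * p.2)) (𝓝 (z, 0)) (𝓝 (z - z₀, 0)) := by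
      have h3 : Continuous (fun p : ℂ × ℂ => (p.1 - z₀, 2 * p.2)) := by fun_prop
      have h4 := h3.tendsto (z, 0)
      simpa using h4
    filter_upwards [h2.eventually h1] with p hp
    simp only [hΦ]
    rw [hp, hF]
    simp only
    congr 1
    apply Prod.ext
    · simp only; ring
    · simp only; ring
  have hΦtc : ∀ z ∈ ball c (dist c z₀), z ∈ ball z₀ δ₀ →
      ∀ᶠ z' in 𝓝 z, ∀ k, tc Φ k z' = Ik ρ k z' := by
    intro z hz hzδ
    filter_upwards [tc_congr (hΦS z hz hzδ), tc_Sm_of_geoBd (hgood z hz).bd] with z' h1 h2 k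
    rw [h1 k, h2 k]
  -- a common ball
  have hev : ∀ᶠ z in 𝓝 z₀, AnalyticAt ℂ ρ z ∧ ρ z ≠ 0 :=
    hρ.eventually_analyticAt.and (hρ.continuousAt.eventually_ne h0)
  obtain ⟨s₁, hs₁, hball⟩ := Metric.eventually_nhds_iff_ball.1 hev
  set s : ℝ := min s₁ δ₀ with hs
  have hs0 : 0 < s := lt_min hs₁ hδ₀
  have hsρ : ∀ z ∈ ball z₀ s, AnalyticAt ℂ ρ z ∧ ρ z ≠ 0 := fun z hz =>
    hball z (ball_subset_ball (min_le_left _ _) hz)
  have hsδ : ∀ z ∈ ball z₀ s, z ∈ ball z₀ δ₀ := fun z hz => ball_subset_ball (min_le_right _ _) hz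
  obtain ⟨z₁, hz₁c, hz₁s⟩ := exists_near hc hs0
  have hcoef : ∀ z ∈ ball z₀ s, ∀ k, tc Φ k z = Ik ρ k z := by
    intro z hz k
    refine ball_eq (f := tc Φ k) (g := Ik ρ k) (fun z' hz' => analyticAt_tc (hΦd z' (hsδ z' hz')) k)
      (fun z' hz' => Ik_an A (hsρ z' hz').1 (hsρ z' hz').2 k) hz₁s ?_ z hz
    filter_upwards [hΦtc z₁ hz₁c (hsδ z₁ hz₁s)] with z' h1 using h1 k
  have hcev : ∀ᶠ z' in 𝓝 z₀, ∀ k, tc Φ k z' = Ik ρ k z' := by
    filter_upwards [ball_mem_nhds z₀ hs0] with z' hz' using hcoef z' hz'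
  have hodd : ∀ z ∈ ball z₀ s, ∀ k : ℕ, Even k → Ik ρ k z = 0 := by
    intro z hz k hk
    refine ball_eq (f := Ik ρ k) (g := fun _ => 0)
      (fun z' hz' => Ik_an A (hsρ z' hz').1 (hsρ z' hz').2 k) (fun _ _ => analyticAt_const)
      hz₁s ?_ z hz
    filter_upwards [(hgood z₁ hz₁c).odd] with z' h1 using h1 k hk
  -- invariance
  have hinvΦ : ∀ᶠ p in 𝓝 ((z₀, 0) : ℂ × ℂ), Φ (TT ρ p) = Φ p := by
    have key := germ_eq (f := fun x y => Φ (TT ρ (x, y))) (g := fun x y => Φ (x, y))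
      (G := ball z₀ s) (convex_ball z₀ s).isPreconnected
      (fun z hz => JD_of_analyticAt (f := fun p => Φ (TT ρ p)) ((hΦd z (hsδ z hz)).comp_of_eq
        (TT_an A (hsρ z hz).1 (hsρ z hz).2) (TT_axis z)))
      (fun z hz => JD_of_analyticAt (hΦd z (hsδ z hz))) hz₁s (by
        have e1 := hΦS z₁ hz₁c (hsδ z₁ hz₁s)
        have e2 := (TT_tendsto A (hsρ z₁ hz₁s).1 (hsρ z₁ hz₁s).2).eventually e1
        filter_upwards [e1, e2, (hgood z₁ hz₁c).inv] with p f1 f2 f3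
        show Φ (TT ρ p) = Φ p
        rw [f2, f3, f1])
    exact key z₀ (mem_ball_self hs0)
  have hSmΦ : ∀ᶠ p in 𝓝 ((z₀, 0) : ℂ × ℂ), Sm (Ik ρ) p = Φ p := by
    filter_upwards [Sm_congr hcev, Sm_tc (hΦd z₀ hz₀δ)] with p h1 h2
    rw [← h1, h2]
  refine ⟨eventually_Ik_an A hρ h0, (geoBd_tc (hΦd z₀ hz₀δ)).congr hcev, ?_, ?_⟩
  · filter_upwards [hSmΦ, (TT_tendsto A hρ h0).eventually hSmΦ, hinvΦ] with p h1 h2 h3
    rw [h2, h3, h1]
  · filter_upwards [ball_mem_nhds z₀ hs0] with z' hz' using hodd z' hz'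

end Vale.Agent.P097.H367.PropD
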