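import Vale.Agent.P097.H536.Defs
import Vale.Agent.P097.H543.Hartogs

/-! # P097 / TRIG-T5, part 1: one Hartogs step towards a line of the strip -/

set_option linter.all false

open scoped ComplexConjugate Topology
open Filter Metric Set Complex

namespace Vale.Agent.P097.H367

open Vale.Agent.P097.TA Vale.Agent.P097.H536 Vale.Agent.P097.H543

/-- box -/
def Bx (h ρ : ℝ) : Set (ℂ × ℂ) := {p | |p.1.im| < h ∧ ‖p.2‖ < ρ}

/-- sector -/
def Sc (w : ℂ) : Prop := 1 / 20 * ‖w‖ < |w.im|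

/-- box after a step upwards -/
def Up (h ρ γ : ℝ) : Set (ℂ × ℂ) :=
  {p | -h < p.1.im ∧ p.1.im < h + 11 / 25 * γ ∧ ‖p.2‖ < 4 / 5 * ρ}

theorem isOpen_Bx (h ρ : ℝ) : IsOpen (Bx h ρ) := by
  have h1 : IsOpen {p : ℂ × ℂ | |p.1.im| < h} :=
    isOpen_lt (continuous_abs.comp (Complex.continuous_im.comp continuous_fst)) continuous_const
  have h2 : IsOpen {p : ℂ × ℂ | ‖p.2‖ < ρ} := isOpen_lt continuous_snd.norm continuous_const
  exact h1.inter h2

theorem isOpen_Sc : IsOpen {p : ℂ × ℂ | Sc p.2} :=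
  isOpen_lt (continuous_const.mul continuous_snd.norm)
    (continuous_abs.comp (Complex.continuous_im.comp continuous_snd))

theorem isOpen_Up (h ρ γ : ℝ) : IsOpen (Up h ρ γ) := by
  have h1 : IsOpen {p : ℂ × ℂ | -h < p.1.im} :=
    isOpen_lt continuous_const (Complex.continuous_im.comp continuous_fst)
  have h2 : IsOpen {p : ℂ × ℂ | p.1.im < h + 11 / 25 * γ} :=
    isOpen_lt (Complex.continuous_im.comp continuous_fst) continuous_const
  have h3 : IsOpen {p : ℂ × ℂ | ‖p.2‖ < 4 / 5 * ρ} :=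
    isOpen_lt continuous_snd.norm continuous_const
  exact h1.inter (h2.inter h3)

/-- real part of a fourth power on the unit circle near the real axis -/
theorem re_pow_four {z : ℂ} (h1 : ‖z‖ = 1) (h2 : |z.im| ≤ 1 / 20) : 49 / 50 ≤ (z ^ 4).re := by
  have h3 : z.re ^ 2 + z.im ^ 2 = 1 := by
    have := Complex.sq_norm z
    rw [h1, Complex.normSq_apply] at this
    nlinarith
  have h4 : (z ^ 4).re = 1 - 8 * z.re ^ 2 * z.im ^ 2 := by
    have e : (z ^ 4).re = z.re ^ 4 - 6 * z.re ^ 2 * z.im ^ 2 + z.im ^ 4 := by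
      have : z ^ 4 = (z * z) * (z * z) := by ring
      rw [this]
      simp only [mul_re, mul_im]
      ring
    rw [e]
    have : (z.re ^ 2 + z.im ^ 2) ^ 2 = 1 := by rw [h3]; norm_num
    linarith [this, (by ring : (z.re ^ 2 + z.im ^ 2) ^ 2
      = z.re ^ 4 + 2 * z.re ^ 2 * z.im ^ 2 + z.im ^ 4)]
  rw [h4]
  have h5 : z.im ^ 2 ≤ 1 / 400 := by
    rw [← sq_abs]
    have := abs_nonneg z.im
    nlinarith
  have h6 : z.re ^ 2 ≤ 1 := by nlinarith [sq_nonneg z.im]
  nlinarith [sq_nonneg z.im, sq_nonneg z.re]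

theorem abs_re_pow_four_le (z : ℂ) : |(z ^ 4).re| ≤ ‖z‖ ^ 4 := by
  rw [← norm_pow]
  exact Complex.abs_re_le_norm _

/-- the barrier -/
noncomputable def GG (h γ R : ℝ) (w : ℂ) : ℂ := h + γ * (19 / 20 - (w / R) ^ 4)

theorem GG_re (h γ R : ℝ) (w : ℂ) :
    (GG h γ R w).re = h + γ * (19 / 20 - ((w / R) ^ 4).re) := by
  unfold GG
  rw [add_re, ofReal_re, re_ofReal_mul, sub_re]
  congr 3
  norm_num

theorem GG_diff (h γ R : ℝ) : Differentiable ℂ (GG h γ R) := by
  unfold GG
  fun_prop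

theorem norm_div_R {R : ℝ} (hR : 0 < R) (w : ℂ) : ‖w / (R : ℂ)‖ = ‖w‖ / R := by
  rw [norm_div, Complex.norm_real, Real.norm_eq_abs, abs_of_pos hR]

/-- over the closed disc the barrier stays between `h - γ / 20` and `h + 39 / 20 γ` -/
theorem GG_bounds {h γ R : ℝ} (hγ : 0 < γ) (hR : 0 < R) {w : ℂ} (hw : ‖w‖ ≤ R) :
    h - 1 / 20 * γ ≤ (GG h γ R w).re ∧ (GG h γ R w).re ≤ h + 39 / 20 * γ := by
  rw [GG_re]
  have h1 := abs_re_pow_four_le (w / R)
  rw [norm_div_R hR] at h1
  have h2 : ‖w‖ / R ≤ 1 := by rw [div_le_one hR]; exact hw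
  have h3 : (‖w‖ / R) ^ 4 ≤ 1 := pow_le_one₀ (by positivity) h2
  have h4 := (abs_le.1 (h1.trans h3))
  constructor <;> nlinarith [h4.1, h4.2]

/-- outside of the sector the barrier is below `h` on the circle -/
theorem GG_circle {h γ R : ℝ} (hγ : 0 < γ) (hR : 0 < R) {w : ℂ} (hw : ‖w‖ = R) (hs : ¬ Sc w) :
    (GG h γ R w).re < h := by
  rw [GG_re]
  have h1 : ‖w / (R : ℂ)‖ = 1 := by rw [norm_div_R hR, hw, div_self hR.ne']
  have h2 : |(w / (R : ℂ)).im| ≤ 1 / 20 := by
    have e : (w / (R : ℂ)).im = w.im / R := by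
      rw [Complex.div_ofReal_im]
    rw [e, abs_div, abs_of_pos hR, div_le_iff₀ hR]
    unfold Sc at hs
    push Not at hs
    rw [hw] at hs
    linarith
  have h3 := re_pow_four h1 h2
  nlinarith

/-- inside the barrier is high -/
theorem GG_inside {h γ ρ : ℝ} (hγ : 0 < γ) (hρ : 0 < ρ) {w : ℂ} (hw : ‖w‖ < 4 / 5 * ρ) :
    h + 11 / 25 * γ < (GG h γ (19 / 20 * ρ) w).re := by
  have hR : 0 < 19 / 20 * ρ := by positivity
  rw [GG_re]
  have h1 := abs_re_pow_four_le (w / ((19 / 20 * ρ : ℝ) : ℂ))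
  rw [norm_div_R hR] at h1
  have h2 : ‖w‖ / (19 / 20 * ρ) ≤ 16 / 19 := by
    rw [div_le_iff₀ hR]; linarith
  have h3 : (‖w‖ / (19 / 20 * ρ)) ^ 4 ≤ (16 / 19) ^ 4 := pow_le_pow_left₀ (by positivity) h2 4
  have h4 := (abs_le.1 (h1.trans h3)).2
  have h5 : ((16 : ℝ) / 19) ^ 4 < 51 / 100 := by norm_num
  nlinarith

theorem step_up {Y c' C h ρ γ M : ℝ} (hh : 0 < h) (hρ : 0 < ρ) (hγ : 0 < γ) (hγh : γ < h)
    (hc' : 0 < c') (hC : 0 ≤ C) (hρc : ρ ≤ c' * (Y - h - 2 * γ)) {u v : ℂ → ℂ → ℂ}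
    (hu : JD u (Bx h ρ)) (pu : Per u (Bx h ρ)) (bu : ∀ t w, (t, w) ∈ Bx h ρ → ‖u t w‖ ≤ M)
    (hv : JD v (Sec Y c' (1 / 20))) (pv : Per v (Sec Y c' (1 / 20)))
    (bv : ∀ t w, (t, w) ∈ Sec Y c' (1 / 20) → ‖v t w‖ * (Y - |t.im|) ≤ C)
    (huv : ∀ t w, (t, w) ∈ Bx h ρ → Sc w → u t w = v t w) :
    ∃ F : ℂ → ℂ → ℂ, JD F (Up h ρ γ) ∧ Per F (Up h ρ γ) ∧
      (∀ t w, (t, w) ∈ Up h ρ γ → |t.im| < h → F t w = u t w) ∧
      (∀ t w, (t, w) ∈ Up h ρ γ → Sc w → F t w = v t w) ∧
      (∀ t w, (t, w) ∈ Up h ρ γ → ‖F t w‖ ≤ max M (C / (Y - h - 2 * γ))) := by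
  have hd : 0 < Y - h - 2 * γ := by
    by_contra hcon
    push Not at hcon
    have : c' * (Y - h - 2 * γ) ≤ 0 := mul_nonpos_of_nonneg_of_nonpos hc'.le hcon
    linarith
  set R : ℝ := 19 / 20 * ρ with hRdef
  have hR : 0 < R := by positivity
  have hRρ : R < ρ := by rw [hRdef]; linarith
  -- the sector piece
  set N : Set (ℂ × ℂ) := {p | Sc p.2 ∧ -h < p.1.im ∧ p.1.im < h + 2 * γ ∧ ‖p.2‖ < ρ} with hN
  have hNo : IsOpen N := by
    have h1 : IsOpen {p : ℂ × ℂ | -h < p.1.im} :=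
      isOpen_lt continuous_const (Complex.continuous_im.comp continuous_fst)
    have h2 : IsOpen {p : ℂ × ℂ | p.1.im < h + 2 * γ} :=
      isOpen_lt (Complex.continuous_im.comp continuous_fst) continuous_const
    have h3 : IsOpen {p : ℂ × ℂ | ‖p.2‖ < ρ} := isOpen_lt continuous_snd.norm continuous_const
    exact isOpen_Sc.inter (h1.inter (h2.inter h3))
  have habs : ∀ t : ℂ, -h < t.im → t.im < h + 2 * γ → |t.im| < h + 2 * γ := by
    intro t h1 h2
    rw [abs_lt]; constructor <;> linarith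
  have hNS : N ⊆ Sec Y c' (1 / 20) := by
    rintro ⟨t, w⟩ ⟨h1, h2, h3, h4⟩
    simp only at h1 h2 h3 h4
    refine ⟨h1, ?_⟩
    simp only
    have h5 := habs t h2 h3
    calc ‖w‖ < ρ := h4
      _ ≤ c' * (Y - h - 2 * γ) := hρc
      _ ≤ c' * (Y - |t.im|) := mul_le_mul_of_nonneg_left (by linarith) hc'.le
  have hvN : JD v N := JD_mono hv hNS
  obtain ⟨f, hfJ, hfS, hfN⟩ := JD_glue (isOpen_Bx h ρ) hNo hu hvN (by
    rintro ⟨t, w⟩ h1 h2
    exact (huv t w h1 h2.1).symm)
  set Ω : Set (ℂ × ℂ) := Bx h ρ ∪ N with hΩ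
  have hHypo : Hypo (-h) Ω := by
    refine ⟨(isOpen_Bx h ρ).union hNo, ?_, ?_⟩
    · rintro t w (h1 | h1)
      · exact (abs_lt.1 h1.1).1
      · exact h1.2.1
    · rintro t s w (h1 | h1) h2 h3
      · left
        refine ⟨?_, h1.2⟩
        have := abs_lt.1 h1.1
        simp only at this ⊢
        rw [abs_lt]; constructor <;> linarith
      · right
        refine ⟨h1.1, h2, ?_, h1.2.2.2⟩
        have := h1.2.2.1
        simp only at this ⊢
        linarith
  have hfP : Per f Ω := by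
    rintro t w (h1 | h1)
    · have h2 : (t + 1, w) ∈ Bx h ρ := by
        refine ⟨?_, h1.2⟩
        simpa using h1.1
      rw [hfS _ h2, hfS _ h1]
      exact pu t w h1
    · have h2 : (t + 1, w) ∈ N := by
        refine ⟨h1.1, ?_, ?_, h1.2.2.2⟩
        · simpa using h1.2.1
        · simpa using h1.2.2.1
      rw [hfN _ h2, hfN _ h1]
      exact pv t w (hNS h1)
  have hGd : Differentiable ℂ (GG h γ R) := GG_diff h γ R
  obtain ⟨F, hFJ, hFP, hFΩ⟩ := hartogs_periodic hHypo hfJ hfP (w₁ := 0) hR (a := 0) (by linarith)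
    (by
      intro w hw
      left
      rw [mem_closedBall, dist_zero_right] at hw
      refine ⟨?_, lt_of_le_of_lt hw hRρ⟩
      simpa using hh)
    (GG := GG h γ R) (U := univ) isOpen_univ (subset_univ _) hGd.differentiableOn
    (by
      intro w hw hlow
      rw [mem_sphere, dist_zero_right] at hw
      have hb := GG_bounds (h := h) hγ hR hw.le
      by_cases hs : Sc w
      · right
        refine ⟨hs, ?_, ?_, by simp only; rw [hw]; exact hRρ⟩
        · simpa using hlow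
        · simp only [mul_im, ofReal_re, I_im, mul_one, ofReal_im, I_re, mul_zero, add_zero]
          linarith [hb.2]
      · left
        refine ⟨?_, by simp only; rw [hw]; exact hRρ⟩
        have := GG_circle (h := h) hγ hR hw hs
        simp only [mul_im, ofReal_re, I_im, mul_one, ofReal_im, I_re, mul_zero, add_zero]
        rw [abs_lt]
        exact ⟨hlow, this⟩)
  set N' : Set (ℂ × ℂ) := {p | p.2 ∈ ball 0 R ∧ -h < p.1.im ∧ p.1.im < (GG h γ R p.2).re} with hN'
  have hN'o : IsOpen N' := by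
    have h1 : IsOpen {p : ℂ × ℂ | p.2 ∈ ball (0 : ℂ) R} := isOpen_ball.preimage continuous_snd
    have h2 : IsOpen {p : ℂ × ℂ | -h < p.1.im} :=
      isOpen_lt continuous_const (Complex.continuous_im.comp continuous_fst)
    have h3 : IsOpen {p : ℂ × ℂ | p.1.im < (GG h γ R p.2).re} :=
      isOpen_lt (Complex.continuous_im.comp continuous_fst)
        (Complex.continuous_re.comp (hGd.continuous.comp continuous_snd))
    exact h1.inter (h2.inter h3)
  have hDo : IsOpen (Ω ∪ N') := hHypo.op.union hN'o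
  have hUpD : Up h ρ γ ⊆ Ω ∪ N' := by
    rintro ⟨t, w⟩ ⟨h1, h2, h3⟩
    right
    refine ⟨?_, h1, ?_⟩
    · rw [mem_ball, dist_zero_right]
      simp only at h3 ⊢
      rw [hRdef]; linarith
    · have := GG_inside (h := h) hγ hρ h3
      simp only at h2 ⊢
      exact h2.trans this
  refine ⟨F, JD_mono hFJ hUpD, ?_, ?_, ?_, ?_⟩
  · intro t w hp
    exact hFP t w (hUpD hp)
  · intro t w hp ht
    have h1 : (t, w) ∈ Bx h ρ := ⟨ht, by have := hp.2.2; simp only at this ⊢; linarith⟩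
    have h2 := hFΩ (t, w) (Or.inl h1)
    simp only at h2
    rw [h2]
    exact hfS (t, w) h1
  · intro t w hp hs
    have h1 : (t, w) ∈ N := by
      refine ⟨hs, hp.1, ?_, ?_⟩
      · have := hp.2.1; simp only at this ⊢; linarith
      · have := hp.2.2; simp only at this ⊢; linarith
    have h2 := hFΩ (t, w) (Or.inr h1)
    simp only at h2
    rw [h2]
    exact hfN (t, w) h1
  · -- the bound
    intro t₀ w₀ hp
    obtain ⟨hp1, hp2, hp3⟩ := hp
    simp only at hp1 hp2 hp3
    by_cases hlt : t₀.im < h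
    · have h1 : (t₀, w₀) ∈ Bx h ρ := ⟨abs_lt.2 ⟨hp1, hlt⟩, by simp only; linarith⟩
      have h2 := hFΩ (t₀, w₀) (Or.inl h1)
      simp only at h2
      rw [h2, hfS (t₀, w₀) h1]
      exact (bu _ _ h1).trans (le_max_left _ _)
    push Not at hlt
    have hw₀ : ‖w₀‖ < R := by rw [hRdef]; linarith
    have hG0 := GG_inside (h := h) hγ hρ hp3
    rw [← hRdef] at hG0
    set T : ℂ → ℂ := fun w => t₀ + I * (GG h γ R w - GG h γ R w₀) with hT
    have hTd : Differentiable ℂ T := by
      rw [hT]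
      exact ((hGd.sub_const _).const_mul _).const_add _
    have hTim : ∀ w, (T w).im = t₀.im + ((GG h γ R w).re - (GG h γ R w₀).re) := by
      intro w; simp [hT]
    have hb0 := GG_bounds (h := h) hγ hR hw₀.le
    have hlow : ∀ w : ℂ, ‖w‖ ≤ R → -h < (T w).im := by
      intro w hw
      have hb := GG_bounds (h := h) hγ hR hw
      rw [hTim]
      nlinarith [hb.1, hb0.2]
    have hupp : ∀ w : ℂ, (T w).im < (GG h γ R w).re := by
      intro w
      rw [hTim]
      linarith
    have hsph : ∀ w : ℂ, ‖w‖ = R → (T w, w) ∈ Ω := by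
      intro w hw
      have hb := GG_bounds (h := h) hγ hR hw.le
      by_cases hs : Sc w
      · right
        refine ⟨hs, hlow w hw.le, ?_, by simp only; rw [hw]; exact hRρ⟩
        have := hupp w
        simp only
        linarith [hb.2]
      · left
        refine ⟨?_, by simp only; rw [hw]; exact hRρ⟩
        have h1 := GG_circle (h := h) hγ hR hw hs
        have h2 := hupp w
        have h3 := hlow w hw.le
        simp only
        rw [abs_lt]
        exact ⟨h3, h2.trans h1⟩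
    have hmem : ∀ w : ℂ, ‖w‖ ≤ R → (T w, w) ∈ Ω ∪ N' := by
      intro w hw
      rcases hw.eq_or_lt with hw | hw
      · exact Or.inl (hsph w hw)
      · right
        refine ⟨?_, hlow w hw.le, hupp w⟩
        rw [mem_ball, dist_zero_right]; exact hw
    have hφd : ∀ w : ℂ, ‖w‖ ≤ R → DifferentiableAt ℂ (fun w => F (T w) w) w := by
      intro w hw
      have h1 := JD_at hFJ hDo (hmem w hw)
      have h2 : DifferentiableAt ℂ (fun w : ℂ => (T w, w)) w :=
        (hTd w).prodMk differentiableAt_id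
      exact DifferentiableAt.comp w (f := fun w : ℂ => (T w, w)) h1 h2
    have hdc : DiffContOnCl ℂ (fun w => F (T w) w) (ball 0 R) := by
      refine ⟨fun w hw => (hφd w ?_).differentiableWithinAt, ?_⟩
      · rw [mem_ball, dist_zero_right] at hw; exact hw.le
      · rw [closure_ball _ hR.ne']
        intro w hw
        rw [mem_closedBall, dist_zero_right] at hw
        exact (hφd w hw).continuousAt.continuousWithinAt
    have hfr : ∀ w ∈ frontier (ball (0 : ℂ) R),
        ‖F (T w) w‖ ≤ max M (C / (Y - h - 2 * γ)) := by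
      intro w hw
      rw [frontier_ball _ hR.ne', mem_sphere, dist_zero_right] at hw
      have h1 := hsph w hw
      have h2 := hFΩ (T w, w) h1
      simp only at h2
      rw [h2]
      rcases h1 with h1 | h1
      · rw [hfS _ h1]
        exact (bu _ _ h1).trans (le_max_left _ _)
      · rw [hfN _ h1]
        refine le_trans ?_ (le_max_right _ _)
        rw [le_div_iff₀ hd]
        have h3 := bv (T w) w (hNS h1)
        have h4 := habs (T w) h1.2.1 h1.2.2.1
        refine le_trans ?_ h3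
        exact mul_le_mul_of_nonneg_left (by linarith) (norm_nonneg _)
    have h9 := Complex.norm_le_of_forall_mem_frontier_norm_le isBounded_ball hdc hfr
      (z := w₀) (subset_closure (by rw [mem_ball, dist_zero_right]; exact hw₀))
    have hTw : T w₀ = t₀ := by simp [hT]
    simp only [hTw] at h9
    exact h9

end Vale.Agent.P097.H367
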