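import Vale.Agent.P097.H367.Two

/-! # P097 / TRIG-T5, part 3: the radius lemma -/

set_option linter.all false

open scoped ComplexConjugate Topology
open Filter Metric Set Complex

namespace Vale.Agent.P097.H367

open Vale.Agent.P097.TA Vale.Agent.P097.H536 Vale.Agent.P097.H543

theorem phase1 {Y c' C r₀ : ℝ} (hY : 0 < Y) (hc' : 0 < c') (hC : 0 ≤ C) (hr₀ : 0 < r₀)
    (hr₀Y : r₀ ≤ Y / 2) {u v u₀ : ℂ → ℂ → ℂ} {ρ M : ℝ} (hρ : 0 < ρ) (H : St r₀ ρ M r₀ u v u₀)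
    (hv : JD v (Sec Y c' (1 / 20))) (pv : Per v (Sec Y c' (1 / 20)))
    (bv : ∀ t w, (t, w) ∈ Sec Y c' (1 / 20) → ‖v t w‖ * (Y - |t.im|) ≤ C) (n : ℕ) :
    ∃ (ρ' M' : ℝ) (F : ℂ → ℂ → ℂ), 0 < ρ' ∧
      St (min ((11 / 10) ^ n * r₀) (Y / 2)) ρ' M' r₀ F v u₀ := by
  induction n with
  | zero =>
    refine ⟨ρ, M, u, hρ, ?_⟩
    rw [pow_zero, one_mul, min_eq_left hr₀Y]
    exact H
  | succ n ih =>
    obtain ⟨ρ', M', F, hρ', HF⟩ := ih
    set h : ℝ := min ((11 / 10) ^ n * r₀) (Y / 2) with hh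
    have h1 : 1 ≤ ((11 : ℝ) / 10) ^ n := one_le_pow₀ (by norm_num)
    have hr : r₀ ≤ h := by
      rw [hh]
      refine le_min ?_ hr₀Y
      nlinarith
    have hpos : 0 < h := hr₀.trans_le hr
    have hhY : h ≤ Y / 2 := min_le_right _ _
    set ρ₁ : ℝ := min ρ' (c' * (Y / 4)) with hρ₁
    have hρ₁p : 0 < ρ₁ := lt_min hρ' (by positivity)
    have HF' : St h ρ₁ M' r₀ F v u₀ := HF.mono le_rfl (min_le_left _ _) le_rfl
    obtain ⟨F', HF''⟩ := step_two (γ := h / 4) hpos hρ₁p (by positivity) (by linarith) hc' hC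
      (by
        refine (min_le_right _ _).trans ?_
        exact mul_le_mul_of_nonneg_left (by linarith) hc'.le) hr HF' hv pv bv
    refine ⟨4 / 5 * ρ₁, _, F', by positivity, HF''.mono ?_ le_rfl le_rfl⟩
    rw [hh]
    rcases le_total ((11 / 10) ^ n * r₀) (Y / 2) with h2 | h2
    · rw [min_eq_left h2]
      refine (min_le_left _ _).trans ?_
      rw [pow_succ]
      have : 0 < (11 / 10 : ℝ) ^ n * r₀ := by positivity
      nlinarith
    · rw [min_eq_right h2]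
      refine (min_le_right _ _).trans ?_
      linarith

theorem phase2 {Y c' C r₀ : ℝ} (hY : 0 < Y) (hc' : 0 < c') (hC : 0 ≤ C) (hr₀ : 0 < r₀)
    (hr₀Y : r₀ ≤ Y / 2) {u v u₀ : ℂ → ℂ → ℂ} {ρ M : ℝ} (hρ : 0 < ρ)
    (H : St (Y / 2) ρ M r₀ u v u₀)
    (hv : JD v (Sec Y c' (1 / 20))) (pv : Per v (Sec Y c' (1 / 20)))
    (bv : ∀ t w, (t, w) ∈ Sec Y c' (1 / 20) → ‖v t w‖ * (Y - |t.im|) ≤ C) :
    ∃ c K : ℝ, 0 < c ∧ 0 ≤ K ∧ ∀ k : ℕ, ∃ F : ℂ → ℂ → ℂ,
      St (Y - (4 / 5) ^ k * (Y / 2)) (c * ((4 / 5) ^ k * (Y / 2)))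
        (K / ((4 / 5) ^ k * (Y / 2))) r₀ F v u₀ := by
  set c : ℝ := min (ρ / (Y / 2)) (c' / 20) with hc
  set K : ℝ := max (|M| * (Y / 2)) (20 * C) with hK
  have hcp : 0 < c := lt_min (by positivity) (by positivity)
  have hKp : 0 ≤ K := le_max_of_le_left (by positivity)
  refine ⟨c, K, hcp, hKp, ?_⟩
  intro k
  induction k with
  | zero =>
    refine ⟨u, ?_⟩
    rw [pow_zero, one_mul]
    refine H.mono (by linarith) ?_ ?_
    · have : c ≤ ρ / (Y / 2) := min_le_left _ _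
      rwa [le_div_iff₀ (by positivity)] at this
    · rw [le_div_iff₀ (by positivity)]
      refine le_trans ?_ (le_max_left _ _)
      exact mul_le_mul_of_nonneg_right (le_abs_self _) (by positivity)
  | succ k ih =>
    obtain ⟨F, HF⟩ := ih
    set d : ℝ := (4 / 5) ^ k * (Y / 2) with hd
    have hdp : 0 < d := by positivity
    have hk1 : ((4 : ℝ) / 5) ^ k ≤ 1 := pow_le_one₀ (by norm_num) (by norm_num)
    have hdY : d ≤ Y / 2 := by
      rw [hd]
      nlinarith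
    have hcd : c * d ≤ c' * (Y - (Y - d) - 2 * (19 / 40 * d)) := by
      have h1 : c ≤ c' / 20 := min_le_right _ _
      have h2 : c * d ≤ c' / 20 * d := mul_le_mul_of_nonneg_right h1 hdp.le
      calc c * d ≤ c' / 20 * d := h2
        _ = _ := by ring
    obtain ⟨F', HF'⟩ := step_two (γ := 19 / 40 * d) (by linarith) (by positivity) (by positivity)
      (by linarith) hc' hC hcd (by linarith) HF hv pv bv
    have hd' : (4 / 5 : ℝ) ^ (k + 1) * (Y / 2) = 4 / 5 * d := by rw [hd, pow_succ]; ring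
    refine ⟨F', ?_⟩
    rw [hd']
    refine HF'.mono (by linarith) (le_of_eq (by ring)) ?_
    apply max_le
    · apply div_le_div_of_nonneg_left hKp (by positivity)
      linarith
    · have e : Y - (Y - d) - 2 * (19 / 40 * d) = d / 20 := by ring
      rw [e, div_le_div_iff₀ (by positivity) (by positivity)]
      have h1 : 20 * C ≤ K := le_max_right _ _
      nlinarith

theorem exists_k {Y δ : ℝ} (hY : 0 < Y) (hδ : 0 < δ) (hδY : δ ≤ Y / 2) :
    ∃ k : ℕ, (4 / 5) ^ (k + 1) * (Y / 2) < δ ∧ δ ≤ (4 / 5) ^ k * (Y / 2) := by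
  have h1 : 0 < δ / (Y / 2) := by positivity
  have h2 : δ / (Y / 2) ≤ 1 := by rw [div_le_one (by positivity)]; exact hδY
  obtain ⟨k, hk1, hk2⟩ := exists_nat_pow_near_of_lt_one h1 h2 (by norm_num : (0 : ℝ) < 4 / 5)
    (by norm_num)
  refine ⟨k, ?_, ?_⟩
  · rwa [lt_div_iff₀ (by positivity)] at hk1
  · rwa [div_le_iff₀ (by positivity)] at hk2

theorem t5 : T5 := by
  intro Y r e L c' C ε f g hY hr he hL hc' hC hε hf pf bf hg pg bg hgf
  -- the base
  set r₀ : ℝ := min (min r ε) (Y / 2) with hr₀def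
  have hr₀ : 0 < r₀ := lt_min (lt_min hr hε) (by positivity)
  have hr₀r : r₀ ≤ r := (min_le_left _ _).trans (min_le_left _ _)
  have hr₀ε : r₀ ≤ ε := (min_le_left _ _).trans (min_le_right _ _)
  have hr₀Y : r₀ ≤ Y / 2 := min_le_right _ _
  set ρ₀ : ℝ := min (min e ε) (c' * (Y / 2)) with hρ₀def
  have hρ₀ : 0 < ρ₀ := lt_min (lt_min he hε) (by positivity)
  have hρ₀e : ρ₀ ≤ e := (min_le_left _ _).trans (min_le_left _ _)
  have hρ₀ε : ρ₀ ≤ ε := (min_le_left _ _).trans (min_le_right _ _)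
  have hρ₀c : ρ₀ ≤ c' * (Y / 2) := min_le_right _ _
  have hWW : ∀ t w : ℂ, |t.im| < r₀ → ‖w‖ < ρ₀ → (t, w) ∈ WW 0 r e := by
    intro t w h1 h2
    refine ⟨h2.trans_le hρ₀e, ?_⟩
    simp only [zero_mul, add_zero]
    exact h1.trans_le hr₀r
  obtain ⟨u₀, hu0J, hu0e, hu0b, hu0c⟩ := H202.div_pow_JD (q := f) (κ := r₀) (R' := ρ₀) (C := L) 1
    hρ₀ hL (JD_mono hf (by rintro ⟨t, w⟩ ⟨h1, h2⟩; exact hWW t w h1 h2))
    (fun t w h1 h2 => bf t w (hWW t w h1 h2))
  set v : ℂ → ℂ → ℂ := fun t w => g t w / w ^ 2 with hv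
  have hSc0 : ∀ w : ℂ, 1 / 20 * ‖w‖ < |w.im| → w ≠ 0 := by
    rintro w h rfl
    simp at h
  have hvJ : JD v (Sec Y c' (1 / 20)) := by
    have h1 : DifferentiableOn ℂ (fun p : ℂ × ℂ => p.2 ^ 2) (Sec Y c' (1 / 20)) :=
      Differentiable.differentiableOn (by fun_prop)
    have h2 : DifferentiableOn ℂ (fun p : ℂ × ℂ => g p.1 p.2) (Sec Y c' (1 / 20)) := hg
    have h4 : ∀ p ∈ Sec Y c' (1 / 20), (p.2) ^ 2 ≠ 0 := fun p hp => pow_ne_zero _ (hSc0 _ hp.1)
    have h3 : DifferentiableOn ℂ (fun p : ℂ × ℂ => (p.2 ^ 2)⁻¹) (Sec Y c' (1 / 20)) :=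
      DifferentiableOn.inv h1 h4
    refine (h2.mul h3).congr ?_
    intro p hp
    simp only [hv, div_eq_mul_inv, Pi.mul_apply]
  have hvP : Per v (Sec Y c' (1 / 20)) := by
    intro t w hp
    simp only [hv]
    rw [pg t w hp]
  have hvb : ∀ t w, (t, w) ∈ Sec Y c' (1 / 20) → ‖v t w‖ * (Y - |t.im|) ≤ C := by
    intro t w hp
    have h1 := bg t w hp
    have h2 : 0 < ‖w‖ ^ 2 := pow_pos (norm_pos_iff.2 (hSc0 w hp.1)) 2
    simp only [hv, norm_div, norm_pow]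
    rw [div_mul_eq_mul_div, div_le_iff₀ h2]
    exact h1
  have hbase : St r₀ (ρ₀ / 2) L r₀ u₀ v u₀ := by
    refine ⟨hu0J, ?_, ?_, fun t w hp => hu0b t w hp.1 hp.2, fun _ _ _ _ => rfl⟩
    · intro t w hp
      have h1 : |(t + 1).im| < r₀ := by simpa using hp.1
      refine H202.eq_of_punct (R := ρ₀ / 2) (f := u₀ (t + 1)) (g := u₀ t) (hu0c _ h1)
        (hu0c _ hp.1) ?_ w hp.2
      intro d hd0 hd
      have e1 := hu0e (t + 1) d h1 hd
      have e2 := hu0e t d hp.1 hd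
      have e3 := pf t d (hWW t d hp.1 (by linarith))
      rw [e1, e2] at e3
      exact mul_left_cancel₀ (pow_ne_zero _ hd0) e3
    · intro t w hp hs
      have hw0 := hSc0 w hs
      have e1 := hu0e t w hp.1 hp.2
      have hpim : |t.im| < r₀ := hp.1
      have hpw : ‖w‖ < ρ₀ / 2 := hp.2
      have h2 : (t, w) ∈ Sec Y c' (1 / 20) := by
        refine ⟨hs, ?_⟩
        simp only
        calc ‖w‖ < ρ₀ := by linarith
          _ ≤ c' * (Y / 2) := hρ₀c
          _ ≤ c' * (Y - |t.im|) := mul_le_mul_of_nonneg_left (by linarith) hc'.le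
      have e2 := hgf t w h2 (hpim.trans_le hr₀ε) (by linarith)
      simp only [hv]
      rw [e2, e1]
      field_simp
  -- phase 1
  obtain ⟨n, hn⟩ : ∃ n : ℕ, Y / 2 / r₀ < (11 / 10 : ℝ) ^ n := pow_unbounded_of_one_lt _ (by norm_num)
  obtain ⟨ρ₁, M₁, u₁, hρ₁, H₁⟩ := phase1 hY hc' hC hr₀ hr₀Y (by positivity) hbase hvJ hvP hvb n
  rw [min_eq_right (by
    rw [div_lt_iff₀ hr₀] at hn
    exact hn.le)] at H₁
  -- phase 2
  obtain ⟨c, K, hc, hK, hall⟩ := phase2 hY hc' hC hr₀ hr₀Y hρ₁ H₁ hvJ hvP hvb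
  choose F hF using hall
  set D : ℕ → ℝ := fun k => (4 / 5) ^ k * (Y / 2) with hD
  have hDp : ∀ k, 0 < D k := fun k => by positivity
  set B : ℕ → Set (ℂ × ℂ) := fun k => Bx (Y - D k) (c * D k) with hB
  have hF' : ∀ k, St (Y - D k) (c * D k) (K / D k) r₀ (F k) v u₀ := hF
  have huniq : ∀ j k, ∀ t w : ℂ, (t, w) ∈ B j → (t, w) ∈ B k → F j t w = F k t w := by
    intro j k t w h1 h2
    exact (hF' j).unique hr₀ (hF' k) h1 h2
  classical
  set U : ℂ → ℂ → ℂ := fun t w =>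
    if h : ∃ k, (t, w) ∈ B k then F (Classical.choose h) t w else 0 with hU
  have hUk : ∀ k, ∀ t w : ℂ, (t, w) ∈ B k → U t w = F k t w := by
    intro k t w hp
    have h : ∃ k, (t, w) ∈ B k := ⟨k, hp⟩
    simp only [hU, h, dif_pos]
    exact huniq _ _ t w (Classical.choose_spec h) hp
  -- location of the points of the cone
  have hloc : ∀ t w : ℂ, (t, w) ∈ Cone Y (c / 2) →
      ∃ k, (t, w) ∈ B k ∧ Y - |t.im| ≤ 2 * D k := by
    intro t w hp
    have hp' : ‖w‖ < c / 2 * (Y - |t.im|) := hp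
    have hδ : 0 < Y - |t.im| := by
      by_contra hcon
      push Not at hcon
      have := mul_nonpos_of_nonneg_of_nonpos (by positivity : 0 ≤ c / 2) hcon
      have := norm_nonneg w
      linarith
    rcases le_or_gt (Y - |t.im|) (Y / 2) with h1 | h1
    · obtain ⟨k, hk1, hk2⟩ := exists_k hY hδ h1
      refine ⟨k + 1, ⟨?_, ?_⟩, ?_⟩
      · show |t.im| < Y - (4 / 5) ^ (k + 1) * (Y / 2)
        linarith
      · show ‖w‖ < c * ((4 / 5) ^ (k + 1) * (Y / 2))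
        have e1 : (4 / 5 : ℝ) ^ (k + 1) * (Y / 2) = 4 / 5 * ((4 / 5) ^ k * (Y / 2)) := by
          rw [pow_succ]; ring
        rw [e1]
        have h3 : 0 < (4 / 5 : ℝ) ^ k * (Y / 2) := by positivity
        nlinarith
      · show Y - |t.im| ≤ 2 * ((4 / 5) ^ (k + 1) * (Y / 2))
        have e1 : (4 / 5 : ℝ) ^ (k + 1) * (Y / 2) = 4 / 5 * ((4 / 5) ^ k * (Y / 2)) := by
          rw [pow_succ]; ring
        rw [e1]
        have h3 : 0 < (4 / 5 : ℝ) ^ k * (Y / 2) := by positivity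
        linarith
    · have e0 : D 0 = Y / 2 := by simp [hD]
      refine ⟨0, ⟨?_, ?_⟩, ?_⟩
      · show |t.im| < Y - D 0
        rw [e0]; linarith
      · show ‖w‖ < c * D 0
        rw [e0]
        have := abs_nonneg t.im
        nlinarith
      · rw [e0]
        have := abs_nonneg t.im
        linarith
  refine ⟨c / 2, 2 * K, fun t w => w ^ 2 * U t w, by positivity, by positivity, ?_, ?_, ?_⟩
  · intro p hp
    obtain ⟨t, w⟩ := p
    obtain ⟨k, hk, -⟩ := hloc t w hp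
    apply DifferentiableAt.differentiableWithinAt
    have hBo : IsOpen (B k) := isOpen_Bx _ _
    have h1 : DifferentiableAt ℂ (fun p : ℂ × ℂ => F k p.1 p.2) (t, w) :=
      JD_at (hF' k).hol hBo hk
    have h2 : DifferentiableAt ℂ (fun p : ℂ × ℂ => U p.1 p.2) (t, w) := by
      refine h1.congr_of_eventuallyEq ?_
      filter_upwards [hBo.mem_nhds hk] with q hq
      exact hUk k q.1 q.2 hq
    have h3 : DifferentiableAt ℂ (fun p : ℂ × ℂ => p.2 ^ 2) (t, w) := by fun_prop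
    exact h3.mul h2
  · intro t w hp
    obtain ⟨k, hk, hk2⟩ := hloc t w hp
    have h1 := (hF' k).bd t w hk
    rw [norm_mul, norm_pow, hUk k t w hk]
    have hp' : ‖w‖ < c / 2 * (Y - |t.im|) := hp
    have hδ : 0 ≤ Y - |t.im| := by
      by_contra hcon
      push Not at hcon
      have := mul_nonpos_of_nonneg_of_nonpos (by positivity : 0 ≤ c / 2) hcon.le
      have := norm_nonneg w
      linarith
    have h2 : ‖F k t w‖ * (Y - |t.im|) ≤ 2 * K := by
      calc ‖F k t w‖ * (Y - |t.im|) ≤ K / D k * (2 * D k) :=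
            mul_le_mul h1 hk2 hδ (div_nonneg hK (hDp k).le)
        _ = 2 * K := by
            have := (hDp k).ne'
            field_simp
    calc ‖w‖ ^ 2 * ‖F k t w‖ * (Y - |t.im|) = ‖w‖ ^ 2 * (‖F k t w‖ * (Y - |t.im|)) := by ring
      _ ≤ ‖w‖ ^ 2 * (2 * K) := mul_le_mul_of_nonneg_left h2 (by positivity)
      _ = 2 * K * ‖w‖ ^ 2 := by ring
  · refine ⟨min (min r₀ (ρ₀ / 2)) (c * D 0), lt_min (lt_min hr₀ (by positivity))
      (mul_pos hc (hDp 0)), ?_⟩
    intro t w h1 h2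
    have e0 : D 0 = Y / 2 := by simp [hD]
    have ht : |t.im| < r₀ := h1.trans_le ((min_le_left _ _).trans (min_le_left _ _))
    have hw : ‖w‖ < ρ₀ / 2 := h2.trans_le ((min_le_left _ _).trans (min_le_right _ _))
    have hw' : ‖w‖ < c * D 0 := h2.trans_le (min_le_right _ _)
    have hk : (t, w) ∈ B 0 := by
      refine ⟨?_, hw'⟩
      show |t.im| < Y - D 0
      rw [e0]; linarith
    show w ^ 2 * U t w = f t w
    rw [hUk 0 t w hk, (hF' 0).base t w hk ht, hu0e t w ht hw]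

end Vale.Agent.P097.H367
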