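import Vale.Agent.P097.H367.Step

/-! # P097 / TRIG-T5, part 2: the two sided step and the iteration -/

set_option linter.all false

open scoped ComplexConjugate Topology
open Filter Metric Set Complex

namespace Vale.Agent.P097.H367

open Vale.Agent.P097.TA Vale.Agent.P097.H536 Vale.Agent.P097.H543

/-- reflection of the phase -/
theorem JD_refl {f : ℂ → ℂ → ℂ} {S : Set (ℂ × ℂ)} (h : JD f S) :
    JD (fun t w => f (-t) w) {p | (-p.1, p.2) ∈ S} := by
  have h1 : Differentiable ℂ (fun p : ℂ × ℂ => (-p.1, p.2)) :=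
    differentiable_fst.neg.prodMk differentiable_snd
  exact DifferentiableOn.comp (g := fun p : ℂ × ℂ => f p.1 p.2) h h1.differentiableOn
    fun p hp => hp

/-- state of the iteration -/
structure St (h ρ M r₀ : ℝ) (u v u₀ : ℂ → ℂ → ℂ) : Prop where
  hol : JD u (Bx h ρ)
  per : Per u (Bx h ρ)
  sec : ∀ t w, (t, w) ∈ Bx h ρ → Sc w → u t w = v t w
  bd : ∀ t w, (t, w) ∈ Bx h ρ → ‖u t w‖ ≤ M
  base : ∀ t w, (t, w) ∈ Bx h ρ → |t.im| < r₀ → u t w = u₀ t w

theorem Bx_mono {h h' ρ ρ' : ℝ} (hh : h' ≤ h) (hρ : ρ' ≤ ρ) : Bx h' ρ' ⊆ Bx h ρ := by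
  rintro p ⟨h1, h2⟩
  exact ⟨h1.trans_le hh, h2.trans_le hρ⟩

theorem St.mono {h h' ρ ρ' M M' r₀ : ℝ} {u v u₀ : ℂ → ℂ → ℂ} (H : St h ρ M r₀ u v u₀)
    (hh : h' ≤ h) (hρ : ρ' ≤ ρ) (hM : M ≤ M') : St h' ρ' M' r₀ u v u₀ :=
  have hs := Bx_mono hh hρ
  ⟨JD_mono H.hol hs, fun t w hp => H.per t w (hs hp), fun t w hp => H.sec t w (hs hp),
    fun t w hp => (H.bd t w (hs hp)).trans hM, fun t w hp => H.base t w (hs hp)⟩

theorem step_two {Y c' C h ρ γ M r₀ : ℝ} (hh : 0 < h) (hρ : 0 < ρ) (hγ : 0 < γ) (hγh : γ < h)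
    (hc' : 0 < c') (hC : 0 ≤ C) (hρc : ρ ≤ c' * (Y - h - 2 * γ)) (hr₀ : r₀ ≤ h)
    {u v u₀ : ℂ → ℂ → ℂ} (H : St h ρ M r₀ u v u₀)
    (hv : JD v (Sec Y c' (1 / 20))) (pv : Per v (Sec Y c' (1 / 20)))
    (bv : ∀ t w, (t, w) ∈ Sec Y c' (1 / 20) → ‖v t w‖ * (Y - |t.im|) ≤ C) :
    ∃ F : ℂ → ℂ → ℂ,
      St (h + 11 / 25 * γ) (4 / 5 * ρ) (max M (C / (Y - h - 2 * γ))) r₀ F v u₀ := by
  obtain ⟨F₁, hJ1, hP1, hu1, hv1, hb1⟩ := step_up hh hρ hγ hγh hc' hC hρc H.hol H.per H.bd hv pv bv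
    H.sec
  have hrB : ∀ t w : ℂ, (t, w) ∈ Bx h ρ → (-t, w) ∈ Bx h ρ := by
    rintro t w ⟨h1, h2⟩
    refine ⟨?_, h2⟩
    simpa using h1
  have hrS : ∀ t w : ℂ, (t, w) ∈ Sec Y c' (1 / 20) → (-t, w) ∈ Sec Y c' (1 / 20) := by
    rintro t w ⟨h1, h2⟩
    refine ⟨h1, ?_⟩
    simpa using h2
  obtain ⟨F₂, hJ2, hP2, hu2, hv2, hb2⟩ := step_up (u := fun t w => u (-t) w)
    (v := fun t w => v (-t) w) hh hρ hγ hγh hc' hC hρc
    (JD_mono (JD_refl H.hol) (by rintro ⟨t, w⟩ hp; exact hrB t w hp))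
    (by
      intro t w hp
      have h1 : (-t - 1, w) ∈ Bx h ρ := by
        have := hrB t w hp
        refine ⟨?_, this.2⟩
        simpa using this.1
      have h2 := H.per (-t - 1) w h1
      rw [sub_add_cancel] at h2
      have h3 : -(t + 1) = -t - 1 := by ring
      show u (-(t + 1)) w = u (-t) w
      rw [h3, h2])
    (fun t w hp => H.bd _ _ (hrB t w hp))
    (JD_mono (JD_refl hv) (by rintro ⟨t, w⟩ hp; exact hrS t w hp))
    (by
      intro t w hp
      have h1 : (-t - 1, w) ∈ Sec Y c' (1 / 20) := by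
        have := hrS t w hp
        refine ⟨this.1, ?_⟩
        have h2 := this.2
        simpa using h2
      have h2 := pv (-t - 1) w h1
      rw [sub_add_cancel] at h2
      have h3 : -(t + 1) = -t - 1 := by ring
      show v (-(t + 1)) w = v (-t) w
      rw [h3, h2])
    (by
      intro t w hp
      have := bv (-t) w (hrS t w hp)
      simpa using this)
    (fun t w hp hs => H.sec _ _ (hrB t w hp) hs)
  set Dn : Set (ℂ × ℂ) := {p | (-p.1, p.2) ∈ Up h ρ γ} with hDn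
  have hDno : IsOpen Dn := (isOpen_Up h ρ γ).preimage (by fun_prop)
  have hJ2' : JD (fun t w => F₂ (-t) w) Dn := JD_refl hJ2
  have hov : ∀ t w : ℂ, (t, w) ∈ Up h ρ γ → (t, w) ∈ Dn → |t.im| < h ∧ F₂ (-t) w = F₁ t w := by
    intro t w h1 h2
    have h3 : |t.im| < h := by
      have e1 := h1.1
      have e2 := h2.1
      simp only [neg_im] at e1 e2
      rw [abs_lt]; constructor <;> linarith
    refine ⟨h3, ?_⟩
    rw [hu1 t w h1 h3, hu2 (-t) w h2 (by simpa using h3), neg_neg]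
  obtain ⟨F, hFJ, hF1, hF2⟩ := JD_glue (isOpen_Up h ρ γ) hDno hJ1 hJ2' (by
    rintro ⟨t, w⟩ h1 h2
    exact (hov t w h1 h2).2)
  have hsplit : ∀ t w : ℂ, (t, w) ∈ Bx (h + 11 / 25 * γ) (4 / 5 * ρ) →
      (t, w) ∈ Up h ρ γ ∨ (t, w) ∈ Dn := by
    rintro t w ⟨h1, h2⟩
    have h3 := abs_lt.1 h1
    simp only at h2 h3
    rcases le_or_gt 0 t.im with h4 | h4
    · left
      exact ⟨by simp only; linarith, h3.2, h2⟩
    · right
      refine ⟨?_, ?_, h2⟩
      · simp only [neg_im]; linarith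
      · simp only [neg_im]; linarith
  refine ⟨F, ?_, ?_, ?_, ?_, ?_⟩
  · refine JD_mono hFJ ?_
    rintro ⟨t, w⟩ hp
    exact hsplit t w hp
  · intro t w hp
    rcases hsplit t w hp with h1 | h1
    · have h2 : (t + 1, w) ∈ Up h ρ γ := by
        refine ⟨?_, ?_, h1.2.2⟩
        · have := h1.1; simpa using this
        · have := h1.2.1; simpa using this
      have e1 := hF1 _ h1
      have e2 := hF1 _ h2
      simp only at e1 e2
      rw [e1, e2]
      exact hP1 t w h1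
    · have h2 : (t + 1, w) ∈ Dn := by
        refine ⟨?_, ?_, h1.2.2⟩
        · have := h1.1; simpa using this
        · have := h1.2.1; simpa using this
      have e1 := hF2 _ h1
      have e2 := hF2 _ h2
      simp only at e1 e2
      rw [e1, e2]
      have h3 : (-(t + 1), w) ∈ Up h ρ γ := h2
      have h4 := hP2 (-(t + 1)) w h3
      have h5 : -(t + 1) + 1 = -t := by ring
      rw [h5] at h4
      exact h4.symm
  · intro t w hp hs
    rcases hsplit t w hp with h1 | h1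
    · have e1 := hF1 _ h1
      simp only at e1
      rw [e1]
      exact hv1 t w h1 hs
    · have e1 := hF2 _ h1
      simp only at e1
      rw [e1]
      have := hv2 (-t) w h1 hs
      simp only [neg_neg] at this
      exact this
  · intro t w hp
    rcases hsplit t w hp with h1 | h1
    · have e1 := hF1 _ h1
      simp only at e1
      rw [e1]
      exact hb1 t w h1
    · have e1 := hF2 _ h1
      simp only at e1
      rw [e1]
      exact hb2 (-t) w h1
  · intro t w hp ht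
    have hth : |t.im| < h := ht.trans_le hr₀
    have hw : ‖w‖ < 4 / 5 * ρ := hp.2
    have h1 : (t, w) ∈ Up h ρ γ := by
      have h3 := abs_lt.1 hth
      refine ⟨h3.1, ?_, hw⟩
      simp only; linarith
    have e1 := hF1 _ h1
    simp only at e1
    rw [e1, hu1 t w h1 hth]
    exact H.base t w ⟨hth, by simp only; linarith⟩ ht

/-- uniqueness of the continuation -/
theorem St.unique {h h' ρ ρ' M M' r₀ : ℝ} (hr₀ : 0 < r₀) {u u' v u₀ : ℂ → ℂ → ℂ}
    (H : St h ρ M r₀ u v u₀) (H' : St h' ρ' M' r₀ u' v u₀) {t w : ℂ} (h1 : (t, w) ∈ Bx h ρ)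
    (h2 : (t, w) ∈ Bx h' ρ') : u t w = u' t w := by
  set S : Set ℂ := {s : ℂ | |s.im| < min h h'} with hS
  have hSo : IsOpen S :=
    isOpen_lt (continuous_abs.comp Complex.continuous_im) continuous_const
  have hSc : IsPreconnected S := by
    apply Convex.isPreconnected
    have : S = Complex.im ⁻¹' (Ioo (-(min h h')) (min h h')) := by
      ext s; simp only [hS, mem_setOf_eq, mem_preimage, mem_Ioo, abs_lt]
    rw [this]
    exact (convex_Ioo (-(min h h')) (min h h')).is_linear_preimage (f := Complex.imLm)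
      Complex.imLm.isLinear
  have hw1 : ‖w‖ < ρ := h1.2
  have hw2 : ‖w‖ < ρ' := h2.2
  have m1 : ∀ s ∈ S, (s, w) ∈ Bx h ρ := fun s hs => ⟨lt_of_lt_of_le hs (min_le_left _ _), hw1⟩
  have m2 : ∀ s ∈ S, (s, w) ∈ Bx h' ρ' := fun s hs => ⟨lt_of_lt_of_le hs (min_le_right _ _), hw2⟩
  have ht : t ∈ S := lt_min h1.1 h2.1
  have hpos : 0 < min h h' := lt_of_le_of_lt (abs_nonneg _) ht
  have slice : ∀ {f : ℂ → ℂ → ℂ} {A : Set (ℂ × ℂ)}, IsOpen A → JD f A → (∀ s ∈ S, (s, w) ∈ A) →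
      AnalyticOnNhd ℂ (fun s => f s w) S := by
    intro f A hA hf hm
    apply DifferentiableOn.analyticOnNhd _ hSo
    intro s hs
    apply DifferentiableAt.differentiableWithinAt
    have := JD_at hf hA (hm s hs)
    exact DifferentiableAt.comp s (f := fun s : ℂ => (s, w)) this
      (differentiableAt_id.prodMk (differentiableAt_const _))
  have a1 := slice (isOpen_Bx h ρ) H.hol m1
  have a2 := slice (isOpen_Bx h' ρ') H'.hol m2
  have h0 : (0 : ℂ) ∈ S := by simpa [hS] using hpos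
  have hloc : (fun s => u s w) =ᶠ[𝓝 0] fun s => u' s w := by
    have : {s : ℂ | |s.im| < min (min h h') r₀} ∈ 𝓝 (0 : ℂ) := by
      refine (isOpen_lt (continuous_abs.comp Complex.continuous_im) continuous_const).mem_nhds ?_
      simp only [mem_setOf_eq, Function.comp, zero_im, abs_zero]
      exact lt_min hpos hr₀
    filter_upwards [this] with s hs
    have hsS : s ∈ S := lt_of_lt_of_le hs (min_le_left _ _)
    have hsr : |s.im| < r₀ := lt_of_lt_of_le hs (min_le_right _ _)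
    rw [H.base s w (m1 s hsS) hsr, H'.base s w (m2 s hsS) hsr]
  exact a1.eqOn_of_preconnected_of_eventuallyEq a2 hSc h0 hloc ht

end Vale.Agent.P097.H367
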